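import Mathlib

/-!
# A one dimensional transport lemma for log-concave product forms

`f`, `g` satisfy the total positivity inequality `g (b + 1) * g a ≤ g b * g (a + 1)` for `a ≤ b`.
Let `μ k = f k * g (s - k)` on `0..s` and `μ' k = f k * g (s + 1 - k)` on `0..s+1`.
The normalized laws are coupled so that `K ≤ K' ≤ K + 1`, which gives a bound for the difference of
the means of functions `h` and `h'` that are close at such pairs.
-/

namespace Vale.Agent.Lib.P328.Walk

open Finset

/-- The total positivity form of log-concavity. -/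
def TP2 (g : ℕ → ℝ) : Prop := ∀ a b, a ≤ b → g (b + 1) * g a ≤ g b * g (a + 1)

section

variable {f g : ℕ → ℝ} {s : ℕ}

/-- First ordering: the partial sums of `μ'` are below those of `μ`. -/
theorem cross_one (hf : ∀ k, 0 ≤ f k) (hg : ∀ k, 0 ≤ g k) (hg2 : TP2 g) {k : ℕ} (hk : k ≤ s) :
    (∑ l ∈ range (k + 1), f l * g (s + 1 - l)) * (∑ u ∈ range (s - k), f (k + 1 + u) * g (s - (k + 1 + u)))
      ≤ (∑ l ∈ range (k + 1), f l * g (s - l))
        * (∑ u ∈ range (s - k), f (k + 1 + u) * g (s + 1 - (k + 1 + u))) := by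
  rw [Finset.sum_mul_sum, Finset.sum_mul_sum]
  refine Finset.sum_le_sum fun l hl => Finset.sum_le_sum fun u hu => ?_
  have hl' := mem_range.1 hl
  have hu' := mem_range.1 hu
  have h1 := hg2 (s - (k + 1 + u)) (s - l) (by omega)
  have e1 : s - l + 1 = s + 1 - l := by omega
  have e2 : s - (k + 1 + u) + 1 = s + 1 - (k + 1 + u) := by omega
  rw [e1, e2] at h1
  have h2 : 0 ≤ f l * f (k + 1 + u) := mul_nonneg (hf _) (hf _)
  calc f l * g (s + 1 - l) * (f (k + 1 + u) * g (s - (k + 1 + u)))
      = f l * f (k + 1 + u) * (g (s + 1 - l) * g (s - (k + 1 + u))) := by ring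
    _ ≤ f l * f (k + 1 + u) * (g (s - l) * g (s + 1 - (k + 1 + u))) :=
        mul_le_mul_of_nonneg_left h1 h2
    _ = _ := by ring

/-- Second ordering. -/
theorem cross_two (hf : ∀ k, 0 ≤ f k) (hg : ∀ k, 0 ≤ g k) (hf2 : TP2 f) {k : ℕ} (hk : k ≤ s) :
    (∑ l ∈ range k, f l * g (s - l)) * (∑ u ∈ range (s + 1 - k), f (k + 1 + u) * g (s + 1 - (k + 1 + u)))
      ≤ (∑ l ∈ range k, f (l + 1) * g (s + 1 - (l + 1)))
        * (∑ u ∈ range (s + 1 - k), f (k + u) * g (s - (k + u))) := by
  rw [Finset.sum_mul_sum, Finset.sum_mul_sum]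
  refine Finset.sum_le_sum fun l hl => Finset.sum_le_sum fun u hu => ?_
  have hl' := mem_range.1 hl
  have hu' := mem_range.1 hu
  have h1 := hf2 l (k + u) (by omega)
  have e1 : s + 1 - (l + 1) = s - l := by omega
  have e2 : s + 1 - (k + 1 + u) = s - (k + u) := by omega
  rw [e1, e2]
  have e3 : k + u + 1 = k + 1 + u := by omega
  rw [e3] at h1
  have h2 : 0 ≤ g (s - l) * g (s - (k + u)) := mul_nonneg (hg _) (hg _)
  calc f l * g (s - l) * (f (k + 1 + u) * g (s - (k + u)))
      = (f (k + 1 + u) * f l) * (g (s - l) * g (s - (k + u))) := by ring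
    _ ≤ (f (k + u) * f (l + 1)) * (g (s - l) * g (s - (k + u))) :=
        mul_le_mul_of_nonneg_right h1 h2
    _ = _ := by ring

end

/-- The transport lemma in terms of the partial sums. -/
theorem transport_abstract {s : ℕ} (μ μ' h h' : ℕ → ℝ) {L : ℝ} (hL : 0 ≤ L)
    (hμ : ∀ k, 0 ≤ μ k) (hμ' : ∀ k, 0 ≤ μ' k)
    {Z Z' : ℝ} (hZ : Z = ∑ k ∈ range (s + 1), μ k) (hZ' : Z' = ∑ k ∈ range (s + 2), μ' k)
    (hZ0 : 0 < Z) (hZ0' : 0 < Z')
    (hord1 : ∀ k, k ≤ s → (∑ l ∈ range (k + 1), μ' l) * Z ≤ (∑ l ∈ range (k + 1), μ l) * Z')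
    (hord2 : ∀ k, k ≤ s → (∑ l ∈ range k, μ l) * Z' ≤ (∑ l ∈ range (k + 1), μ' l) * Z)
    (hclose0 : ∀ k, k ≤ s → 0 < μ k → 0 < μ' k → |h k - h' k| ≤ L)
    (hclose1 : ∀ k, k ≤ s → 0 < μ k → 0 < μ' (k + 1) → |h k - h' (k + 1)| ≤ L) :
    |(∑ k ∈ range (s + 1), μ k * h k) / Z - (∑ k ∈ range (s + 2), μ' k * h' k) / Z'| ≤ L := by
  -- normalized partial sums
  set G : ℕ → ℝ := fun k => (∑ l ∈ range k, μ l) / Z with hG
  set G' : ℕ → ℝ := fun k => (∑ l ∈ range k, μ' l) / Z' with hG'
  have hG0 : G 0 = 0 := by simp [hG]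
  have hG'0 : G' 0 = 0 := by simp [hG']
  have hG1 : G (s + 1) = 1 := by
    simp only [hG]
    rw [← hZ]
    exact div_self hZ0.ne'
  have hG'1 : G' (s + 2) = 1 := by
    simp only [hG']
    rw [← hZ']
    exact div_self hZ0'.ne'
  have hstep : ∀ k, μ k / Z = G (k + 1) - G k := by
    intro k
    simp only [hG]
    rw [Finset.sum_range_succ]
    ring
  have hstep' : ∀ k, μ' k / Z' = G' (k + 1) - G' k := by
    intro k
    simp only [hG']
    rw [Finset.sum_range_succ]
    ring
  have hw1 : ∀ k, k ≤ s → 0 ≤ G (k + 1) - G' (k + 1) := by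
    intro k hk
    have := hord1 k hk
    simp only [hG, hG']
    rw [sub_nonneg, div_le_div_iff₀ hZ0' hZ0]
    exact this
  have hw0 : ∀ k, k ≤ s → 0 ≤ G' (k + 1) - G k := by
    intro k hk
    have := hord2 k hk
    simp only [hG, hG']
    rw [sub_nonneg, div_le_div_iff₀ hZ0 hZ0']
    exact this
  -- the transport identity
  have hid : (∑ k ∈ range (s + 1), μ k * h k) / Z - (∑ k ∈ range (s + 2), μ' k * h' k) / Z'
      = ∑ k ∈ range (s + 1), (G' (k + 1) - G k) * (h k - h' k)
        + ∑ k ∈ range (s + 1), (G (k + 1) - G' (k + 1)) * (h k - h' (k + 1)) := by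
    rw [Finset.sum_div, Finset.sum_div]
    have e1 : ∀ k, μ k * h k / Z = (G' (k + 1) - G k) * h k + (G (k + 1) - G' (k + 1)) * h k := by
      intro k
      rw [mul_div_right_comm, hstep]
      ring
    have e2 : ∀ k, μ' k * h' k / Z' = (G' (k + 1) - G' k) * h' k := by
      intro k
      rw [mul_div_right_comm, hstep']
    simp_rw [e1, e2]
    rw [Finset.sum_add_distrib]
    have e3 : ∑ k ∈ range (s + 2), (G' (k + 1) - G' k) * h' k
        = (G' 1 - G' 0) * h' 0 + ∑ k ∈ range (s + 1), (G' (k + 1 + 1) - G' (k + 1)) * h' (k + 1) :=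
      by
      rw [Finset.sum_range_succ' _ (s + 1)]
      ring
    rw [e3, hG'0]
    have e4 : ∑ k ∈ range (s + 1), (G' (k + 1) - G k) * (h k - h' k)
        = ∑ k ∈ range (s + 1), (G' (k + 1) - G k) * h k
          - ∑ k ∈ range (s + 1), (G' (k + 1) - G k) * h' k := by
      rw [← Finset.sum_sub_distrib]
      exact Finset.sum_congr rfl fun k _ => by ring
    have e5 : ∑ k ∈ range (s + 1), (G (k + 1) - G' (k + 1)) * (h k - h' (k + 1))
        = ∑ k ∈ range (s + 1), (G (k + 1) - G' (k + 1)) * h k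
          - ∑ k ∈ range (s + 1), (G (k + 1) - G' (k + 1)) * h' (k + 1) := by
      rw [← Finset.sum_sub_distrib]
      exact Finset.sum_congr rfl fun k _ => by ring
    rw [e4, e5]
    -- remaining: sums of `h'`
    have e6 : ∑ k ∈ range (s + 1), (G' (k + 1) - G k) * h' k
        + ∑ k ∈ range (s + 1), (G (k + 1) - G' (k + 1)) * h' (k + 1)
        = (G' 1 - 0) * h' 0 + ∑ k ∈ range (s + 1), (G' (k + 1 + 1) - G' (k + 1)) * h' (k + 1) := by
      -- both sides are telescoping rearrangements
      have e7 : ∀ N, N ≤ s + 1 → ∑ k ∈ range N, (G' (k + 1) - G k) * h' k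
          + ∑ k ∈ range N, (G (k + 1) - G' (k + 1)) * h' (k + 1)
          = (G' 1 - 0) * h' 0 + ∑ k ∈ range N, (G' (k + 1 + 1) - G' (k + 1)) * h' (k + 1)
            - (G' (N + 1) - G N) * h' N := by
        intro N _
        induction N with
        | zero =>
          simp [hG0]
        | succ N ih =>
          rw [Finset.sum_range_succ, Finset.sum_range_succ, Finset.sum_range_succ]
          have ih' := ih (by omega)
          linear_combination ih'
      have e8 := e7 (s + 1) le_rfl
      have e9 : G' (s + 1 + 1) - G (s + 1) = 0 := by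
        rw [hG1, show s + 1 + 1 = s + 2 by ring, hG'1]
        ring
      rw [e8, e9]
      ring
    linarith
  rw [hid]
  -- bound
  have hsum : ∑ k ∈ range (s + 1), (G' (k + 1) - G k)
      + ∑ k ∈ range (s + 1), (G (k + 1) - G' (k + 1)) = 1 := by
    rw [← Finset.sum_add_distrib]
    have : ∀ k, (G' (k + 1) - G k) + (G (k + 1) - G' (k + 1)) = G (k + 1) - G k := fun k => by ring
    simp_rw [this]
    rw [Finset.sum_range_sub, hG1, hG0]
    ring
  have hb0 : ∀ k ∈ range (s + 1), |(G' (k + 1) - G k) * (h k - h' k)| ≤ (G' (k + 1) - G k) * L := by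
    intro k hk
    have hk' : k ≤ s := by
      have := mem_range.1 hk
      omega
    have h0 := hw0 k hk'
    rw [abs_mul, abs_of_nonneg h0]
    rcases h0.eq_or_lt with h1 | h1
    · rw [← h1]
      simp
    · refine mul_le_mul_of_nonneg_left (hclose0 k hk' ?_ ?_) h0
      · -- `μ k > 0`
        have h2 := hstep k
        have h3 := hw1 k hk'
        have h4 : 0 < μ k / Z := by
          rw [h2]
          linarith
        exact (div_pos_iff_of_pos_right hZ0).1 h4
      · have h2 := hstep' k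
        have h4 : 0 < μ' k / Z' := by
          rw [h2]
          rcases Nat.eq_zero_or_pos k with rfl | hkpos
          · rw [hG'0]
            have : G 0 = 0 := hG0
            rw [this] at h1
            linarith
          · obtain ⟨k', rfl⟩ := Nat.exists_eq_succ_of_ne_zero hkpos.ne'
            have h5 := hw1 k' (by omega)
            have h6 : G' (k' + 1) ≤ G (k' + 1) := by linarith
            simp only [Nat.succ_eq_add_one] at h1 ⊢
            linarith
        exact (div_pos_iff_of_pos_right hZ0').1 h4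
  have hb1 : ∀ k ∈ range (s + 1), |(G (k + 1) - G' (k + 1)) * (h k - h' (k + 1))|
      ≤ (G (k + 1) - G' (k + 1)) * L := by
    intro k hk
    have hk' : k ≤ s := by
      have := mem_range.1 hk
      omega
    have h0 := hw1 k hk'
    rw [abs_mul, abs_of_nonneg h0]
    rcases h0.eq_or_lt with h1 | h1
    · rw [← h1]
      simp
    · refine mul_le_mul_of_nonneg_left (hclose1 k hk' ?_ ?_) h0
      · have h2 := hstep k
        have h3 := hw0 k hk'
        have h4 : 0 < μ k / Z := by
          rw [h2]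
          linarith
        exact (div_pos_iff_of_pos_right hZ0).1 h4
      · have h2 := hstep' (k + 1)
        have h3 := hw0 (k + 1)
        have h4 : 0 < μ' (k + 1) / Z' := by
          rw [h2]
          by_cases hks : k + 1 ≤ s
          · have h5 := hw0 (k + 1) hks
            linarith
          · have hk2 : k = s := by omega
            subst hk2
            have : G' (k + 1 + 1) = 1 := by
              rw [show k + 1 + 1 = k + 2 by ring]
              exact hG'1
            rw [this]
            have h6 : G (k + 1) = 1 := hG1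
            rw [h6] at h1
            linarith
        exact (div_pos_iff_of_pos_right hZ0').1 h4
  calc |∑ k ∈ range (s + 1), (G' (k + 1) - G k) * (h k - h' k)
        + ∑ k ∈ range (s + 1), (G (k + 1) - G' (k + 1)) * (h k - h' (k + 1))|
      ≤ |∑ k ∈ range (s + 1), (G' (k + 1) - G k) * (h k - h' k)|
        + |∑ k ∈ range (s + 1), (G (k + 1) - G' (k + 1)) * (h k - h' (k + 1))| := abs_add_le _ _
    _ ≤ ∑ k ∈ range (s + 1), (G' (k + 1) - G k) * L
        + ∑ k ∈ range (s + 1), (G (k + 1) - G' (k + 1)) * L :=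
        add_le_add ((Finset.abs_sum_le_sum_abs _ _).trans (Finset.sum_le_sum hb0))
          ((Finset.abs_sum_le_sum_abs _ _).trans (Finset.sum_le_sum hb1))
    _ = (∑ k ∈ range (s + 1), (G' (k + 1) - G k)
        + ∑ k ∈ range (s + 1), (G (k + 1) - G' (k + 1))) * L := by
        rw [add_mul, Finset.sum_mul, Finset.sum_mul]
    _ = L := by
        rw [hsum, one_mul]

/-- **The transport lemma** for `μ k = f k * g (s - k)`, `μ' k = f k * g (s + 1 - k)`. -/
theorem transport_tp2 {f g : ℕ → ℝ} {s : ℕ} (h h' : ℕ → ℝ) {L : ℝ} (hL : 0 ≤ L)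
    (hf : ∀ k, 0 ≤ f k) (hg : ∀ k, 0 ≤ g k) (hf2 : TP2 f) (hg2 : TP2 g)
    (hZ0 : 0 < ∑ k ∈ range (s + 1), f k * g (s - k))
    (hZ0' : 0 < ∑ k ∈ range (s + 2), f k * g (s + 1 - k))
    (hclose0 : ∀ k, k ≤ s → 0 < f k * g (s - k) → 0 < f k * g (s + 1 - k) → |h k - h' k| ≤ L)
    (hclose1 : ∀ k, k ≤ s → 0 < f k * g (s - k) → 0 < f (k + 1) * g (s + 1 - (k + 1)) →
      |h k - h' (k + 1)| ≤ L) :
    |(∑ k ∈ range (s + 1), f k * g (s - k) * h k) / (∑ k ∈ range (s + 1), f k * g (s - k))
      - (∑ k ∈ range (s + 2), f k * g (s + 1 - k) * h' k)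
        / (∑ k ∈ range (s + 2), f k * g (s + 1 - k))| ≤ L := by
  refine transport_abstract (fun k => f k * g (s - k)) (fun k => f k * g (s + 1 - k)) h h' hL
    (fun k => mul_nonneg (hf k) (hg _)) (fun k => mul_nonneg (hf k) (hg _)) rfl rfl hZ0 hZ0'
    ?_ ?_ hclose0 hclose1
  · intro k hk
    -- split the totals
    have e1 : ∑ l ∈ range (s + 1), f l * g (s - l)
        = ∑ l ∈ range (k + 1), f l * g (s - l)
          + ∑ u ∈ range (s - k), f (k + 1 + u) * g (s - (k + 1 + u)) := by
      have : s + 1 = (k + 1) + (s - k) := by omega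
      rw [this, Finset.sum_range_add]
    have e2 : ∑ l ∈ range (s + 2), f l * g (s + 1 - l)
        = ∑ l ∈ range (k + 1), f l * g (s + 1 - l)
          + ∑ u ∈ range (s + 1 - k), f (k + 1 + u) * g (s + 1 - (k + 1 + u)) := by
      have : s + 2 = (k + 1) + (s + 1 - k) := by omega
      rw [this, Finset.sum_range_add]
    have e3 : ∑ u ∈ range (s - k), f (k + 1 + u) * g (s + 1 - (k + 1 + u))
        ≤ ∑ u ∈ range (s + 1 - k), f (k + 1 + u) * g (s + 1 - (k + 1 + u)) := by
      refine Finset.sum_le_sum_of_subset_of_nonneg ?_ fun u _ _ => mul_nonneg (hf _) (hg _)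
      intro u hu
      have := mem_range.1 hu
      exact mem_range.2 (by omega)
    have h1 := cross_one (f := f) (g := g) (s := s) hf hg hg2 hk
    have h2 : 0 ≤ ∑ l ∈ range (k + 1), f l * g (s - l) :=
      Finset.sum_nonneg fun l _ => mul_nonneg (hf _) (hg _)
    rw [e1, e2]
    nlinarith [mul_le_mul_of_nonneg_left e3 h2]
  · intro k hk
    have e1 : ∑ l ∈ range (s + 1), f l * g (s - l)
        = ∑ l ∈ range k, f l * g (s - l)
          + ∑ u ∈ range (s + 1 - k), f (k + u) * g (s - (k + u)) := by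
      have : s + 1 = k + (s + 1 - k) := by omega
      conv_lhs => rw [this, Finset.sum_range_add]
    have e2 : ∑ l ∈ range (s + 2), f l * g (s + 1 - l)
        = ∑ l ∈ range (k + 1), f l * g (s + 1 - l)
          + ∑ u ∈ range (s + 1 - k), f (k + 1 + u) * g (s + 1 - (k + 1 + u)) := by
      have : s + 2 = (k + 1) + (s + 1 - k) := by omega
      rw [this, Finset.sum_range_add]
    have e3 : ∑ l ∈ range (k + 1), f l * g (s + 1 - l)
        = f 0 * g (s + 1 - 0) + ∑ l ∈ range k, f (l + 1) * g (s + 1 - (l + 1)) := by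
      rw [Finset.sum_range_succ']
      ring
    have h1 := cross_two (f := f) (g := g) (s := s) hf hg hf2 hk
    have h0 : 0 ≤ f 0 * g (s + 1 - 0) := mul_nonneg (hf _) (hg _)
    have h2 : 0 ≤ ∑ u ∈ range (s + 1 - k), f (k + u) * g (s - (k + u)) :=
      Finset.sum_nonneg fun u _ => mul_nonneg (hf _) (hg _)
    rw [e1, e2]
    rw [e3] at *
    nlinarith [mul_nonneg h0 h2]

end Vale.Agent.Lib.P328.Walk
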