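import Vale.Agent.Lib.P328.Walk.Couple
import Vale.Agent.Lib.P328.Cap.PB1

/-!
# The pair heat bath chain for a conditioned product of log-concave sequences

The states are the vectors `x` in the box of `r` with `∑ i, x i = k`, with weight `∏ i, f i (x i)`,
each `f i` being positive on `0..r i`, zero beyond, and log-concave. One step picks a uniformly random
pair of coordinates and resamples it given everything else. Functions with Lipschitz constant `L` for
unit transfers are mapped to functions with constant `(1 - 1 / binom(m, 2)) * L`: this is the path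
coupling computation of Dyer and Greenhill, written without couplings. Hence mixing in
`binom(m, 2) * log (k / ε)` steps, no matter how large `r` is.
-/

namespace Vale.Agent.Lib.P328.Walk

open Finset Vale.Agent.Lib.P328.Cap

variable {m : ℕ}

/-- The weights: positive on `0..r i`, zero beyond, log-concave. -/
structure LCW (r : Fin m → ℕ) (f : Fin m → ℕ → ℝ) : Prop where
  pos : ∀ i k, k ≤ r i → 0 < f i k
  zero : ∀ i k, r i < k → f i k = 0
  tp2 : ∀ i, TP2 (f i)

/-- The weight of a vector. -/
noncomputable def wW (f : Fin m → ℕ → ℝ) (x : Fin m → ℕ) : ℝ := ∏ i, f i (x i)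

/-- The states that agree with `x` outside `e`. -/
def fibL (r : Fin m → ℕ) (k : ℕ) (e : Finset (Fin m)) (x : Fin m → ℕ) : Finset (Fin m → ℕ) :=
  (lev r k).filter fun y => ∀ i, i ∉ e → y i = x i

/-- The heat bath step on the coordinates `e`, as an operator on functions. -/
noncomputable def hbE (r : Fin m → ℕ) (f : Fin m → ℕ → ℝ) (k : ℕ) (e : Finset (Fin m))
    (g : (Fin m → ℕ) → ℝ) (x : Fin m → ℕ) : ℝ :=
  (∑ y ∈ fibL r k e x, wW f y * g y) / ∑ y ∈ fibL r k e x, wW f y

/-- One step of the chain: a uniformly random pair of coordinates is resampled. -/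
noncomputable def hbP (r : Fin m → ℕ) (f : Fin m → ℕ → ℝ) (k : ℕ)
    (g : (Fin m → ℕ) → ℝ) (x : Fin m → ℕ) : ℝ :=
  (∑ e ∈ powersetCard 2 (univ : Finset (Fin m)), hbE r f k e g x) / ((m.choose 2 : ℕ) : ℝ)

/-- Two states differing by a unit transfer from `b` to `a`. -/
def Nbr (x x' : Fin m → ℕ) (a b : Fin m) : Prop :=
  a ≠ b ∧ x' a = x a + 1 ∧ x b = x' b + 1 ∧ ∀ i, i ≠ a → i ≠ b → x' i = x i

/-- Lipschitz for unit transfers, on the states. -/
def LipL (r : Fin m → ℕ) (k : ℕ) (g : (Fin m → ℕ) → ℝ) (L : ℝ) : Prop :=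
  ∀ x ∈ lev r k, ∀ x' ∈ lev r k, ∀ a b, Nbr x x' a b → |g x - g x'| ≤ L

theorem Nbr.symm {x x' : Fin m → ℕ} {a b : Fin m} (h : Nbr x x' a b) : Nbr x' x b a := by
  obtain ⟨h1, h2, h3, h4⟩ := h
  exact ⟨h1.symm, h3, h2, fun i h5 h6 => (h4 i h6 h5).symm⟩

section

variable {r : Fin m → ℕ} {f : Fin m → ℕ → ℝ} {k : ℕ}

theorem wW_pos (hf : LCW r f) {x : Fin m → ℕ} (hx : x ∈ lev r k) : 0 < wW f x :=
  Finset.prod_pos fun i _ => hf.pos i _ ((mem_lev.1 hx).1 i)

theorem self_mem_fibL {x : Fin m → ℕ} (hx : x ∈ lev r k) (e : Finset (Fin m)) : x ∈ fibL r k e x :=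
  mem_filter.2 ⟨hx, fun _ _ => rfl⟩

theorem hbE_denom_pos (hf : LCW r f) {x : Fin m → ℕ} (hx : x ∈ lev r k) (e : Finset (Fin m)) :
    0 < ∑ y ∈ fibL r k e x, wW f y :=
  Finset.sum_pos (fun y hy => wW_pos hf (mem_filter.1 hy).1) ⟨x, self_mem_fibL hx e⟩

/-- Case of the pair of the transfer itself: the two fibers coincide. -/
theorem hbE_same {x x' : Fin m → ℕ} {a b : Fin m} (h : Nbr x x' a b) (g : (Fin m → ℕ) → ℝ) :
    hbE r f k {a, b} g x = hbE r f k {a, b} g x' := by
  have : fibL r k {a, b} x = fibL r k {a, b} x' := by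
    unfold fibL
    refine Finset.filter_congr fun y _ => ?_
    have h4 := h.2.2.2
    constructor
    · intro h5 i hi
      simp only [mem_insert, mem_singleton, not_or] at hi
      rw [h5 i (by simpa using hi), h4 i hi.1 hi.2]
    · intro h5 i hi
      simp only [mem_insert, mem_singleton, not_or] at hi
      rw [h5 i (by simpa using hi), h4 i hi.1 hi.2]
  unfold hbE
  rw [this]

/-- The unit transfer applied to a vector. -/
def shiftV (a b : Fin m) (y : Fin m → ℕ) : Fin m → ℕ :=
  fun i => if i = a then y i + 1 else if i = b then y i - 1 else y i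

/-- The inverse transfer. -/
def unshiftV (a b : Fin m) (y : Fin m → ℕ) : Fin m → ℕ :=
  fun i => if i = a then y i - 1 else if i = b then y i + 1 else y i

theorem sum_shiftV {a b : Fin m} (hab : a ≠ b) (y : Fin m → ℕ) (hb : 1 ≤ y b) :
    ∑ i, shiftV a b y i = ∑ i, y i := by
  have h : ∀ i, ((shiftV a b y i : ℕ) : ℤ)
      = (y i : ℤ) + (if i = a then (1 : ℤ) else 0) + (if i = b then (-1 : ℤ) else 0) := by
    intro i
    unfold shiftV
    by_cases h1 : i = a
    · subst h1
      simp [hab]
    · by_cases h2 : i = b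
      · subst h2
        simp [h1]
        omega
      · simp [h1, h2]
  have h2 : ((∑ i, shiftV a b y i : ℕ) : ℤ) = ((∑ i, y i : ℕ) : ℤ) := by
    push_cast
    simp_rw [h]
    rw [Finset.sum_add_distrib, Finset.sum_add_distrib]
    simp
  exact_mod_cast h2

/-- Disjoint pair: the two conditional laws are the same up to the transfer. -/
theorem hbE_disjoint (hf : LCW r f) {x x' : Fin m → ℕ} {a b : Fin m} (h : Nbr x x' a b)
    (hx : x ∈ lev r k) (hx' : x' ∈ lev r k) {e : Finset (Fin m)} (ha : a ∉ e) (hb : b ∉ e)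
    {g : (Fin m → ℕ) → ℝ} {L : ℝ} (hL : 0 ≤ L) (hg : LipL r k g L) :
    |hbE r f k e g x - hbE r f k e g x'| ≤ L := by
  obtain ⟨hab, h2, h3, h4⟩ := h
  have hfa : ∀ y ∈ fibL r k e x, y a = x a ∧ y b = x b ∧ y ∈ lev r k := by
    intro y hy
    obtain ⟨h5, h6⟩ := mem_filter.1 hy
    exact ⟨h6 a ha, h6 b hb, h5⟩
  have hrow := (mem_lev.1 hx).1
  have hrow' := (mem_lev.1 hx').1
  -- the transfer maps the fiber of `x` to the fiber of `x'`
  have hmem : ∀ y ∈ fibL r k e x, shiftV a b y ∈ fibL r k e x' := by
    intro y hy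
    obtain ⟨h5, h6, h7⟩ := hfa y hy
    have hy2 := mem_lev.1 h7
    refine mem_filter.2 ⟨mem_lev.2 ⟨?_, ?_⟩, ?_⟩
    · intro i
      unfold shiftV
      by_cases h8 : i = a
      · subst h8
        simp only [if_true]
        rw [h5, ← h2]
        exact hrow' i
      · by_cases h9 : i = b
        · subst h9
          simp only [h8, if_false, if_true]
          have := hy2.1 i
          omega
        · simp only [h8, h9, if_false]
          exact hy2.1 i
    · rw [sum_shiftV hab y (by rw [h6, h3]; omega)]
      exact hy2.2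
    · intro i hi
      unfold shiftV
      by_cases h8 : i = a
      · subst h8
        simp only [if_true]
        rw [h5, h2]
      · by_cases h9 : i = b
        · subst h9
          simp only [h8, if_false, if_true]
          rw [h6, h3]
          simp
        · simp only [h8, h9, if_false]
          rw [(mem_filter.1 hy).2 i hi, h4 i h8 h9]
  have hmem' : ∀ y ∈ fibL r k e x', unshiftV a b y ∈ fibL r k e x := by
    intro y hy
    obtain ⟨h5, h6⟩ := mem_filter.1 hy
    have hy2 := mem_lev.1 h5
    have e1 := h6 a ha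
    have e2 := h6 b hb
    refine mem_filter.2 ⟨mem_lev.2 ⟨?_, ?_⟩, ?_⟩
    · intro i
      unfold unshiftV
      by_cases h8 : i = a
      · subst h8
        simp only [if_true]
        have := hy2.1 i
        omega
      · by_cases h9 : i = b
        · subst h9
          simp only [h8, if_false, if_true]
          rw [e2, ← h3]
          exact hrow i
        · simp only [h8, h9, if_false]
          exact hy2.1 i
    · have e3 : y = shiftV a b (unshiftV a b y) := by
        funext i
        unfold shiftV unshiftV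
        by_cases h8 : i = a
        · subst h8
          simp only [if_true]
          omega
        · by_cases h9 : i = b
          · subst h9
            simp [h8]
          · simp [h8, h9]
      have e4 := sum_shiftV hab (unshiftV a b y) (by
        unfold unshiftV
        simp [hab.symm])
      rw [← e3] at e4
      rw [← e4]
      exact hy2.2
    · intro i hi
      unfold unshiftV
      by_cases h8 : i = a
      · subst h8
        simp only [if_true]
        rw [e1, h2]
        simp
      · by_cases h9 : i = b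
        · subst h9
          simp only [h8, if_false, if_true]
          rw [e2, h3]
        · simp only [h8, h9, if_false]
          rw [h6 i hi, h4 i h8 h9]
  have hinv1 : ∀ y ∈ fibL r k e x, unshiftV a b (shiftV a b y) = y := by
    intro y hy
    obtain ⟨h5, h6, h7⟩ := hfa y hy
    funext i
    unfold shiftV unshiftV
    by_cases h8 : i = a
    · subst h8
      simp
    · by_cases h9 : i = b
      · subst h9
        simp only [h8, if_false, if_true]
        rw [h6, h3]
        simp
      · simp [h8, h9]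
  have hinv2 : ∀ y ∈ fibL r k e x', shiftV a b (unshiftV a b y) = y := by
    intro y hy
    have e1 := (mem_filter.1 hy).2 a ha
    funext i
    unfold shiftV unshiftV
    by_cases h8 : i = a
    · subst h8
      simp only [if_true]
      omega
    · by_cases h9 : i = b
      · subst h9
        simp [h8]
      · simp [h8, h9]
  -- the ratio of the weights is constant on the fiber
  set κ : ℝ := (f a (x' a) * f b (x' b)) / (f a (x a) * f b (x b)) with hκ
  have hpa := hf.pos a (x a) (hrow a)
  have hpb := hf.pos b (x b) (hrow b)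
  have hpa' := hf.pos a (x' a) (hrow' a)
  have hpb' := hf.pos b (x' b) (hrow' b)
  have hκ0 : 0 < κ := by positivity
  have hW : ∀ y ∈ fibL r k e x, wW f (shiftV a b y) = κ * wW f y := by
    intro y hy
    obtain ⟨h5, h6, h7⟩ := hfa y hy
    unfold wW
    have hsplit : ∀ z : Fin m → ℕ, ∏ i, f i (z i)
        = f a (z a) * (f b (z b) * ∏ i ∈ (univ.erase a).erase b, f i (z i)) := by
      intro z
      rw [Finset.mul_prod_erase _ (fun i => f i (z i)) (mem_erase.2 ⟨hab.symm, mem_univ b⟩),
        Finset.mul_prod_erase _ (fun i => f i (z i)) (mem_univ a)]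
    rw [hsplit, hsplit y]
    have e1 : shiftV a b y a = x' a := by
      unfold shiftV
      simp [h5, h2]
    have e2 : shiftV a b y b = x' b := by
      unfold shiftV
      simp [hab.symm, h6, h3]
    have e3 : ∏ i ∈ (univ.erase a).erase b, f i (shiftV a b y i)
        = ∏ i ∈ (univ.erase a).erase b, f i (y i) := by
      refine Finset.prod_congr rfl fun i hi => ?_
      have h8 : i ≠ b := (mem_erase.1 hi).1
      have h9 : i ≠ a := (mem_erase.1 (mem_erase.1 hi).2).1
      unfold shiftV
      simp [h8, h9]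
    rw [e1, e2, e3, h5, h6, hκ]
    have := hpa.ne'
    have := hpb.ne'
    field_simp
  have hsum : ∀ F : (Fin m → ℕ) → ℝ, ∑ y ∈ fibL r k e x', F y = ∑ y ∈ fibL r k e x, F (shiftV a b y) := by
    intro F
    exact (Finset.sum_nbij' (shiftV a b) (unshiftV a b) hmem hmem' hinv1 hinv2 (fun _ _ => rfl)).symm
  have hden := hbE_denom_pos (k := k) hf hx e
  have hE' : hbE r f k e g x'
      = (∑ y ∈ fibL r k e x, wW f y * g (shiftV a b y)) / ∑ y ∈ fibL r k e x, wW f y := by
    unfold hbE
    rw [hsum, hsum (fun y => wW f y)]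
    have e1 : ∑ y ∈ fibL r k e x, wW f (shiftV a b y) * g (shiftV a b y)
        = κ * ∑ y ∈ fibL r k e x, wW f y * g (shiftV a b y) := by
      rw [Finset.mul_sum]
      refine Finset.sum_congr rfl fun y hy => ?_
      rw [hW y hy, mul_assoc]
    have e2 : ∑ y ∈ fibL r k e x, wW f (shiftV a b y) = κ * ∑ y ∈ fibL r k e x, wW f y := by
      rw [Finset.mul_sum]
      exact Finset.sum_congr rfl fun y hy => hW y hy
    rw [e1, e2, mul_div_mul_left _ _ hκ0.ne']
  rw [hE']
  unfold hbE
  rw [← sub_div, abs_div, abs_of_pos hden, div_le_iff₀ hden, ← Finset.sum_sub_distrib,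
    Finset.mul_sum]
  refine (Finset.abs_sum_le_sum_abs _ _).trans (Finset.sum_le_sum fun y hy => ?_)
  rw [← mul_sub, abs_mul, abs_of_pos (wW_pos hf (mem_filter.1 hy).1), mul_comm]
  refine mul_le_mul_of_nonneg_right ?_ (wW_pos hf (mem_filter.1 hy).1).le
  obtain ⟨h5, h6, h7⟩ := hfa y hy
  refine hg y h7 _ (mem_filter.1 (hmem y hy)).1 a b ⟨hab, ?_, ?_, ?_⟩
  · unfold shiftV
    simp
  · unfold shiftV
    simp only [hab.symm, if_false, if_true]
    rw [h6, h3]
    simp
  · intro i h8 h9
    unfold shiftV
    simp [h8, h9]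

/-- Setting the coordinates `a` and `j`. -/
def setP (x : Fin m → ℕ) (a j : Fin m) (p q : ℕ) : Fin m → ℕ :=
  fun i => if i = a then p else if i = j then q else x i

theorem sum_split {a j : Fin m} (haj : a ≠ j) (z : Fin m → ℕ) :
    ∑ i, z i = z a + (z j + ∑ i ∈ (univ.erase a).erase j, z i) := by
  rw [Finset.add_sum_erase _ z (mem_erase.2 ⟨haj.symm, mem_univ j⟩),
    Finset.add_sum_erase _ z (mem_univ a)]

theorem setP_rest {a j : Fin m} (x : Fin m → ℕ) (p q : ℕ) {i : Fin m}
    (hi : i ∈ (univ.erase a).erase j) : setP x a j p q i = x i := by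
  have h8 : i ≠ j := (mem_erase.1 hi).1
  have h9 : i ≠ a := (mem_erase.1 (mem_erase.1 hi).2).1
  unfold setP
  simp [h8, h9]

theorem setP_mem {x : Fin m → ℕ} (hx : x ∈ lev r k) {a j : Fin m} (haj : a ≠ j) {p q : ℕ}
    (hp : p ≤ r a) (hq : q ≤ r j) (hs : p + q = x a + x j) : setP x a j p q ∈ lev r k := by
  obtain ⟨h1, h2⟩ := mem_lev.1 hx
  refine mem_lev.2 ⟨?_, ?_⟩
  · intro i
    unfold setP
    by_cases h8 : i = a
    · subst h8
      simpa using hp
    · by_cases h9 : i = j
      · subst h9
        simpa [h8] using hq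
      · simpa [h8, h9] using h1 i
  · rw [sum_split haj, ← h2, sum_split haj x, Finset.sum_congr rfl fun i hi => setP_rest x p q hi]
    have e1 : setP x a j p q a = p := by simp [setP]
    have e2 : setP x a j p q j = q := by simp [setP, haj.symm]
    rw [e1, e2]
    omega

/-- The rest of the weight, without the coordinates `a` and `j`. -/
noncomputable def wO (f : Fin m → ℕ → ℝ) (x : Fin m → ℕ) (a j : Fin m) : ℝ :=
  ∏ i ∈ (univ.erase a).erase j, f i (x i)

theorem wW_split {a j : Fin m} (haj : a ≠ j) (z : Fin m → ℕ) :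
    wW f z = f a (z a) * (f j (z j) * wO f z a j) := by
  unfold wW wO
  rw [Finset.mul_prod_erase _ (fun i => f i (z i)) (mem_erase.2 ⟨haj.symm, mem_univ j⟩),
    Finset.mul_prod_erase _ (fun i => f i (z i)) (mem_univ a)]

theorem wO_setP {a j : Fin m} (x : Fin m → ℕ) (p q : ℕ) : wO f (setP x a j p q) a j = wO f x a j := by
  unfold wO
  refine Finset.prod_congr rfl fun i hi => ?_
  rw [setP_rest x p q hi]

theorem wO_pos (hf : LCW r f) {x : Fin m → ℕ} (hx : x ∈ lev r k) (a j : Fin m) : 0 < wO f x a j :=
  Finset.prod_pos fun i _ => hf.pos i _ ((mem_lev.1 hx).1 i)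

/-- The sum over a fiber of a pair, in coordinates. -/
theorem fib_sum (hf : LCW r f) {x : Fin m → ℕ} (hx : x ∈ lev r k) {a j : Fin m} (haj : a ≠ j)
    (G : (Fin m → ℕ) → ℝ) :
    ∑ y ∈ fibL r k {a, j} x, wW f y * G y
      = wO f x a j * ∑ p ∈ range (x a + x j + 1),
          f a p * f j (x a + x j - p) * G (setP x a j p (x a + x j - p)) := by
  obtain ⟨h1, h2⟩ := mem_lev.1 hx
  set s := x a + x j with hs
  have hrest : ∀ y ∈ fibL r k {a, j} x, y a + y j = s ∧ ∀ i ∈ (univ.erase a).erase j, y i = x i := by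
    intro y hy
    obtain ⟨h5, h6⟩ := mem_filter.1 hy
    have h7 : ∀ i ∈ (univ.erase a).erase j, y i = x i := by
      intro i hi
      refine h6 i ?_
      have h8 : i ≠ j := (mem_erase.1 hi).1
      have h9 : i ≠ a := (mem_erase.1 (mem_erase.1 hi).2).1
      simp [h8, h9]
    refine ⟨?_, h7⟩
    have e1 := sum_split haj y
    have e2 := sum_split haj x
    have e3 : ∑ i ∈ (univ.erase a).erase j, y i = ∑ i ∈ (univ.erase a).erase j, x i :=
      Finset.sum_congr rfl h7
    rw [(mem_lev.1 h5).2] at e1
    rw [h2] at e2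
    omega
  -- the nonzero terms
  set Tt := (range (s + 1)).filter fun p => p ≤ r a ∧ s - p ≤ r j with hTt
  have e1 : ∑ y ∈ fibL r k {a, j} x, wW f y * G y
      = ∑ p ∈ Tt, wW f (setP x a j p (s - p)) * G (setP x a j p (s - p)) := by
    refine Finset.sum_nbij' (fun y => y a) (fun p => setP x a j p (s - p)) ?_ ?_ ?_ ?_ ?_
    · intro y hy
      obtain ⟨h5, h6⟩ := hrest y hy
      have h7 := (mem_lev.1 (mem_filter.1 hy).1).1
      refine mem_filter.2 ⟨mem_range.2 (by omega), h7 a, ?_⟩
      have := h7 j
      omega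
    · intro p hp
      obtain ⟨h5, h6, h7⟩ := mem_filter.1 hp
      have h8 := mem_range.1 h5
      refine mem_filter.2 ⟨setP_mem hx haj h6 h7 (by omega), ?_⟩
      intro i hi
      simp only [mem_insert, mem_singleton, not_or] at hi
      unfold setP
      simp [hi.1, hi.2]
    · intro y hy
      obtain ⟨h5, h6⟩ := hrest y hy
      funext i
      unfold setP
      by_cases h8 : i = a
      · subst h8
        simp
      · by_cases h9 : i = j
        · subst h9
          simp [h8]
          omega
        · simp only [h8, h9, if_false]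
          exact ((mem_filter.1 hy).2 i (by simp [h8, h9])).symm
    · intro p _
      simp [setP]
    · intro y hy
      obtain ⟨h5, h6⟩ := hrest y hy
      have e3 : setP x a j (y a) (s - y a) = y := by
        funext i
        unfold setP
        by_cases h8 : i = a
        · subst h8
          simp
        · by_cases h9 : i = j
          · subst h9
            simp [h8]
            omega
          · simp only [h8, h9, if_false]
            exact ((mem_filter.1 hy).2 i (by simp [h8, h9])).symm
      rw [e3]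
  rw [e1, Finset.mul_sum]
  have e2 : ∀ p, wW f (setP x a j p (s - p)) = f a p * (f j (s - p) * wO f x a j) := by
    intro p
    rw [wW_split haj, wO_setP]
    have e3 : setP x a j p (s - p) a = p := by simp [setP]
    have e4 : setP x a j p (s - p) j = s - p := by simp [setP, haj.symm]
    rw [e3, e4]
  rw [hTt, Finset.sum_filter]
  refine Finset.sum_congr rfl fun p _ => ?_
  rw [e2]
  split_ifs with h3
  · ring
  · have h4 : f a p = 0 ∨ f j (s - p) = 0 := by
      by_cases h5 : p ≤ r a
      · right
        refine hf.zero j _ ?_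
        by_contra h6
        exact h3 ⟨h5, by omega⟩
      · left
        exact hf.zero a _ (by omega)
    rcases h4 with h4 | h4 <;> rw [h4] <;> ring

/-- The heat bath on a pair, in coordinates. -/
theorem hbE_pair (hf : LCW r f) {x : Fin m → ℕ} (hx : x ∈ lev r k) {a j : Fin m} (haj : a ≠ j)
    (g : (Fin m → ℕ) → ℝ) :
    hbE r f k {a, j} g x
      = (∑ p ∈ range (x a + x j + 1),
            f a p * f j (x a + x j - p) * g (setP x a j p (x a + x j - p)))
        / ∑ p ∈ range (x a + x j + 1), f a p * f j (x a + x j - p) := by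
  unfold hbE
  have h1 := fib_sum hf hx haj g
  have h2 := fib_sum hf hx haj (fun _ => 1)
  simp only [mul_one] at h2
  rw [h1, h2, mul_div_mul_left _ _ (wO_pos hf hx a j).ne']

/-- A pair meeting the transfer in its source coordinate. -/
theorem hbE_overlap (hf : LCW r f) {x x' : Fin m → ℕ} {a b j : Fin m} (h : Nbr x x' a b)
    (hx : x ∈ lev r k) (hx' : x' ∈ lev r k) (hja : a ≠ j) (hjb : j ≠ b)
    {g : (Fin m → ℕ) → ℝ} {L : ℝ} (hL : 0 ≤ L) (hg : LipL r k g L) :
    |hbE r f k {a, j} g x - hbE r f k {a, j} g x'| ≤ L := by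
  obtain ⟨hab, h2, h3, h4⟩ := h
  rw [hbE_pair hf hx hja, hbE_pair hf hx' hja]
  have hj' : x' j = x j := h4 j hja.symm hjb
  set s := x a + x j with hs
  have hs' : x' a + x' j = s + 1 := by
    rw [h2, hj']
    omega
  rw [hs']
  have hnn : ∀ i k, 0 ≤ f i k := by
    intro i k
    by_cases h5 : k ≤ r i
    · exact (hf.pos i k h5).le
    · rw [hf.zero i k (by omega)]
  have hZ : 0 < ∑ p ∈ range (s + 1), f a p * f j (s - p) := by
    refine Finset.sum_pos' (fun p _ => mul_nonneg (hnn _ _) (hnn _ _)) ⟨x a, mem_range.2 (by omega), ?_⟩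
    have e1 : s - x a = x j := by omega
    rw [e1]
    exact mul_pos (hf.pos a _ ((mem_lev.1 hx).1 a)) (hf.pos j _ ((mem_lev.1 hx).1 j))
  have hZ' : 0 < ∑ p ∈ range (s + 1 + 1), f a p * f j (s + 1 - p) := by
    refine Finset.sum_pos' (fun p _ => mul_nonneg (hnn _ _) (hnn _ _)) ⟨x' a, mem_range.2 (by omega), ?_⟩
    have e1 : s + 1 - x' a = x' j := by omega
    rw [e1]
    exact mul_pos (hf.pos a _ ((mem_lev.1 hx').1 a)) (hf.pos j _ ((mem_lev.1 hx').1 j))
  have hbox : ∀ i q, 0 < f i q → q ≤ r i := by
    intro i q hq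
    by_contra h5
    rw [hf.zero i q (by omega)] at hq
    exact lt_irrefl _ hq
  have hbox2 : ∀ i q q', 0 < f i q * f j q' → q ≤ r i ∧ q' ≤ r j := by
    intro i q q' hq
    constructor
    · by_contra h5
      rw [hf.zero i q (by omega)] at hq
      simp at hq
    · by_contra h5
      rw [hf.zero j q' (by omega)] at hq
      simp at hq
  refine transport_tp2 (f := f a) (g := f j) (s := s) _ _ hL (hnn a) (hnn j) (hf.tp2 a) (hf.tp2 j)
    hZ hZ' ?_ ?_
  · intro p hp hp1 hp2
    obtain ⟨h5, h6⟩ := hbox2 a _ _ hp1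
    obtain ⟨h7, h8⟩ := hbox2 a _ _ hp2
    have hy := setP_mem hx hja h5 h6 (show p + (s - p) = x a + x j by omega)
    have hy' := setP_mem hx' hja h7 h8 (show p + (s + 1 - p) = x' a + x' j by omega)
    refine hg _ hy _ hy' j b ⟨hjb, ?_, ?_, ?_⟩
    · simp only [setP, hja.symm, if_false, if_true]
      omega
    · simp only [setP, hab.symm, hjb.symm, if_false]
      exact h3
    · intro i h9 h10
      simp only [setP]
      by_cases h11 : i = a
      · simp [h11]
      · simp only [h11, h9, if_false]
        exact h4 i h11 h10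
  · intro p hp hp1 hp2
    obtain ⟨h5, h6⟩ := hbox2 a _ _ hp1
    obtain ⟨h7, h8⟩ := hbox2 a _ _ hp2
    have hy := setP_mem hx hja h5 h6 (show p + (s - p) = x a + x j by omega)
    have hy' := setP_mem hx' hja h7 h8 (show p + 1 + (s + 1 - (p + 1)) = x' a + x' j by omega)
    refine hg _ hy _ hy' a b ⟨hab, ?_, ?_, ?_⟩
    · simp [setP]
    · simp only [setP, hab.symm, hjb.symm, if_false]
      exact h3
    · intro i h9 h10
      by_cases h11 : i = j
      · subst h11
        simp only [setP, h9, if_false, if_true]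
        omega
      · simp only [setP, h9, h11, if_false]
        exact h4 i h9 h10

/-- Each pair moves the Lipschitz constant by at most `L`. -/
theorem hbE_lip (hf : LCW r f) {x x' : Fin m → ℕ} {a b : Fin m} (h : Nbr x x' a b)
    (hx : x ∈ lev r k) (hx' : x' ∈ lev r k) {e : Finset (Fin m)} (he : e.card = 2)
    {g : (Fin m → ℕ) → ℝ} {L : ℝ} (hL : 0 ≤ L) (hg : LipL r k g L) :
    |hbE r f k e g x - hbE r f k e g x'| ≤ if e = {a, b} then 0 else L := by
  by_cases he2 : e = {a, b}
  · rw [if_pos he2, he2, hbE_same h g]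
    simp
  · rw [if_neg he2]
    obtain ⟨p, q, hpq, rfl⟩ := Finset.card_eq_two.1 he
    by_cases hpa : a ∈ ({p, q} : Finset (Fin m))
    · -- `e = {a, j}` with `j ≠ b`
      have : ∃ j, a ≠ j ∧ ({p, q} : Finset (Fin m)) = {a, j} := by
        simp only [mem_insert, mem_singleton] at hpa
        rcases hpa with rfl | rfl
        · exact ⟨q, hpq, rfl⟩
        · exact ⟨p, hpq.symm, Finset.pair_comm _ _⟩
      obtain ⟨j, hj, hej⟩ := this
      rw [hej] at he2 ⊢
      have hjb : j ≠ b := fun h5 => he2 (by rw [h5])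
      exact hbE_overlap hf h hx hx' hj hjb hL hg
    · by_cases hpb : b ∈ ({p, q} : Finset (Fin m))
      · have : ∃ j, b ≠ j ∧ ({p, q} : Finset (Fin m)) = {b, j} := by
          simp only [mem_insert, mem_singleton] at hpb
          rcases hpb with rfl | rfl
          · exact ⟨q, hpq, rfl⟩
          · exact ⟨p, hpq.symm, Finset.pair_comm _ _⟩
        obtain ⟨j, hj, hej⟩ := this
        rw [hej] at he2 hpa ⊢
        have hja : j ≠ a := fun h5 => hpa (by rw [h5]; simp)
        rw [abs_sub_comm]
        exact hbE_overlap hf h.symm hx' hx hj hja hL hg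
      · exact hbE_disjoint hf h hx hx' hpa hpb hL hg

/-- **Contraction of the Lipschitz constant.** -/
theorem hbP_lip (hf : LCW r f) (hm : 2 ≤ m) {g : (Fin m → ℕ) → ℝ} {L : ℝ} (hL : 0 ≤ L)
    (hg : LipL r k g L) :
    LipL r k (hbP r f k g) ((1 - 1 / ((m.choose 2 : ℕ) : ℝ)) * L) := by
  intro x hx x' hx' a b h
  have hC : (0 : ℝ) < (m.choose 2 : ℕ) := by
    exact_mod_cast Nat.choose_pos hm
  have hcard : (powersetCard 2 (univ : Finset (Fin m))).card = m.choose 2 := by
    rw [Finset.card_powersetCard, Finset.card_univ, Fintype.card_fin]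
  have hmem : ({a, b} : Finset (Fin m)) ∈ powersetCard 2 (univ : Finset (Fin m)) := by
    rw [Finset.mem_powersetCard]
    exact ⟨Finset.subset_univ _, Finset.card_pair h.1⟩
  unfold hbP
  rw [← sub_div, abs_div, abs_of_pos hC, div_le_iff₀ hC, ← Finset.sum_sub_distrib]
  refine (Finset.abs_sum_le_sum_abs _ _).trans ?_
  have h1 : ∑ e ∈ powersetCard 2 (univ : Finset (Fin m)), |hbE r f k e g x - hbE r f k e g x'|
      ≤ ∑ e ∈ powersetCard 2 (univ : Finset (Fin m)), if e = {a, b} then 0 else L :=
    Finset.sum_le_sum fun e he =>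
      hbE_lip hf h hx hx' (Finset.mem_powersetCard.1 he).2 hL hg
  refine h1.trans (le_of_eq ?_)
  have h2 : ∑ e ∈ powersetCard 2 (univ : Finset (Fin m)), (if e = {a, b} then (0 : ℝ) else L)
      = ∑ e ∈ powersetCard 2 (univ : Finset (Fin m)), (L - if e = {a, b} then L else 0) := by
    refine Finset.sum_congr rfl fun e _ => ?_
    split_ifs <;> ring
  rw [h2, Finset.sum_sub_distrib, Finset.sum_ite_eq' _ _ (fun _ => L), if_pos hmem]
  simp only [Finset.sum_const, nsmul_eq_mul, hcard]
  field_simp

end

end Vale.Agent.Lib.P328.Walk
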