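import Vale.Agent.Lib.P328.Walk.HeatBath

/-!
# The pair heat bath chain as a matrix: total variation bound
-/

namespace Vale.Agent.Lib.P328.Walk

open Finset Vale.Agent.Lib.P328.Cap

variable {m : ℕ} {r : Fin m → ℕ} {f : Fin m → ℕ → ℝ} {k : ℕ}

/-- The number of units to transfer from `x` to `y`. -/
def dT (x y : Fin m → ℕ) : ℕ := ∑ i, (x i - y i)

/-- Any two states are joined by at most `dT x y` unit transfers. -/
theorem lip_path {G : (Fin m → ℕ) → ℝ} {L : ℝ} (hL : 0 ≤ L) (hG : LipL r k G L) (d : ℕ) :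
    ∀ x ∈ lev r k, ∀ y ∈ lev r k, dT x y = d → |G x - G y| ≤ d * L := by
  induction d with
  | zero =>
    intro x hx y hy hd
    have h1 : ∀ i, x i ≤ y i := by
      intro i
      have := (Finset.sum_eq_zero_iff.1 hd) i (mem_univ i)
      omega
    have h2 : ∑ i, x i = ∑ i, y i := by
      rw [(mem_lev.1 hx).2, (mem_lev.1 hy).2]
    have h3 : x = y := by
      funext i
      exact (Finset.sum_eq_sum_iff_of_le fun i _ => h1 i).1 h2 i (mem_univ i)
    rw [h3]
    simp
  | succ d ih =>
    intro x hx y hy hd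
    have h0 : ∃ a, y a < x a := by
      by_contra hcon
      push Not at hcon
      have : dT x y = 0 := Finset.sum_eq_zero fun i _ => by
        have := hcon i
        omega
      omega
    obtain ⟨a, ha⟩ := h0
    have h1 : ∃ b, x b < y b := by
      by_contra hcon
      push Not at hcon
      have h2 : ∑ i, y i = ∑ i, x i := by
        rw [(mem_lev.1 hx).2, (mem_lev.1 hy).2]
      have h3 := (Finset.sum_eq_sum_iff_of_le fun i _ => hcon i).1 h2 a (mem_univ a)
      omega
    obtain ⟨b, hb⟩ := h1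
    have hab : b ≠ a := by
      rintro rfl
      omega
    set x' := shiftV b a x with hx'
    have hx'b : x' b = x b + 1 := by simp [hx', shiftV]
    have hx'a : x' a = x a - 1 := by simp [hx', shiftV, hab.symm]
    have hx'i : ∀ i, i ≠ b → i ≠ a → x' i = x i := by
      intro i h5 h6
      simp [hx', shiftV, h5, h6]
    have hmem : x' ∈ lev r k := by
      refine mem_lev.2 ⟨?_, ?_⟩
      · intro i
        by_cases h5 : i = b
        · subst h5
          rw [hx'b]
          have := (mem_lev.1 hy).1 i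
          omega
        · by_cases h6 : i = a
          · subst h6
            rw [hx'a]
            have := (mem_lev.1 hx).1 i
            omega
          · rw [hx'i i h5 h6]
            exact (mem_lev.1 hx).1 i
      · rw [hx', sum_shiftV hab x (by omega)]
        exact (mem_lev.1 hx).2
    have hN : Nbr x x' b a := ⟨hab, hx'b, by rw [hx'a]; omega, fun i h5 h6 => hx'i i h5 h6⟩
    have hd' : dT x' y = d := by
      have e1 : ∀ i, (x i - y i) = (x' i - y i) + (if i = a then 1 else 0) := by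
        intro i
        by_cases h6 : i = a
        · subst h6
          rw [hx'a]
          simp only [if_true]
          omega
        · by_cases h5 : i = b
          · subst h5
            rw [hx'b]
            simp only [h6, if_false]
            omega
          · rw [hx'i i h5 h6]
            simp [h6]
      have e2 : dT x y = dT x' y + 1 := by
        unfold dT
        simp_rw [e1 _]
        rw [Finset.sum_add_distrib]
        simp
      omega
    have h3 := ih x' hmem y hy hd'
    have h4 := hG x hx x' hmem b a hN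
    have h5 : |G x - G y| ≤ |G x - G x'| + |G x' - G y| := abs_sub_le _ _ _
    push_cast
    linarith

theorem dT_le {x y : Fin m → ℕ} (hx : x ∈ lev r k) : dT x y ≤ k := by
  unfold dT
  rw [← (mem_lev.1 hx).2]
  exact Finset.sum_le_sum fun i _ => Nat.sub_le _ _

/-- Iterating the contraction. -/
theorem iter_lip (hf : LCW r f) (hm : 2 ≤ m) {g : (Fin m → ℕ) → ℝ}
    (hg : LipL r k g 1) (T : ℕ) :
    LipL r k ((hbP r f k)^[T] g) ((1 - 1 / ((m.choose 2 : ℕ) : ℝ)) ^ T) := by
  have hC : (1 : ℝ) ≤ (m.choose 2 : ℕ) := by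
    exact_mod_cast Nat.choose_pos hm
  have h0 : 0 ≤ 1 - 1 / ((m.choose 2 : ℕ) : ℝ) := by
    have : 1 / ((m.choose 2 : ℕ) : ℝ) ≤ 1 := by
      rw [div_le_one (by linarith)]
      exact hC
    linarith
  induction T with
  | zero => simpa using hg
  | succ T ih =>
    rw [Function.iterate_succ_apply', pow_succ']
    exact hbP_lip hf hm (pow_nonneg h0 T) ih

/-- The transition matrix of the chain on the states. -/
noncomputable def hbM (r : Fin m → ℕ) (f : Fin m → ℕ → ℝ) (k : ℕ) :
    Matrix (↥(lev r k)) (↥(lev r k)) ℝ :=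
  fun x y => (∑ e ∈ powersetCard 2 (univ : Finset (Fin m)),
      if y.1 ∈ fibL r k e x.1 then wW f y.1 / ∑ z ∈ fibL r k e x.1, wW f z else 0)
    / ((m.choose 2 : ℕ) : ℝ)

/-- The target law on the states. -/
noncomputable def hbPi (r : Fin m → ℕ) (f : Fin m → ℕ → ℝ) (k : ℕ) (y : ↥(lev r k)) : ℝ :=
  wW f y.1 / ∑ z ∈ lev r k, wW f z

theorem hbM_mulVec (g : (Fin m → ℕ) → ℝ) (x : ↥(lev r k)) :
    (hbM r f k).mulVec (fun y => g y.1) x = hbP r f k g x.1 := by
  unfold Matrix.mulVec dotProduct hbM hbP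
  simp_rw [div_mul_eq_mul_div, Finset.sum_mul]
  rw [← Finset.sum_div, Finset.sum_comm]
  congr 1
  refine Finset.sum_congr rfl fun e _ => ?_
  unfold hbE
  rw [Finset.sum_div]
  rw [Finset.sum_coe_sort (lev r k) (fun y => (if y ∈ fibL r k e x.1 then
    wW f y / ∑ z ∈ fibL r k e x.1, wW f z else 0) * g y)]
  have e1 : ∀ y ∈ lev r k, (if y ∈ fibL r k e x.1 then
      wW f y / ∑ z ∈ fibL r k e x.1, wW f z else 0) * g y
      = if (∀ i, i ∉ e → y i = x.1 i) then wW f y * g y / ∑ z ∈ fibL r k e x.1, wW f z else 0 := by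
    intro y hy
    by_cases h : ∀ i, i ∉ e → y i = x.1 i
    · have : y ∈ fibL r k e x.1 := mem_filter.2 ⟨hy, h⟩
      rw [if_pos this, if_pos h]
      ring
    · have : y ∉ fibL r k e x.1 := fun h2 => h (mem_filter.1 h2).2
      rw [if_neg this, if_neg h, zero_mul]
  rw [Finset.sum_congr rfl e1, ← Finset.sum_filter]
  rfl

theorem hbM_pow_mulVec (g : (Fin m → ℕ) → ℝ) (T : ℕ) (x : ↥(lev r k)) :
    ((hbM r f k) ^ T).mulVec (fun y => g y.1) x = (hbP r f k)^[T] g x.1 := by
  induction T generalizing x with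
  | zero => simp
  | succ T ih =>
    rw [pow_succ', ← Matrix.mulVec_mulVec, Function.iterate_succ_apply']
    have : ((hbM r f k) ^ T).mulVec (fun y => g y.1)
        = fun y => (hbP r f k)^[T] g y.1 := funext ih
    rw [this, hbM_mulVec]

theorem hbM_sum (hf : LCW r f) (hm : 2 ≤ m) (x : ↥(lev r k)) : ∑ y, hbM r f k x y = 1 := by
  have h := hbM_mulVec (r := r) (f := f) (k := k) (fun _ => 1) x
  unfold Matrix.mulVec dotProduct at h
  simp only [mul_one] at h
  rw [h]
  unfold hbP hbE
  have hC : (0 : ℝ) < (m.choose 2 : ℕ) := by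
    exact_mod_cast Nat.choose_pos hm
  have h2 : ∀ e ∈ powersetCard 2 (univ : Finset (Fin m)),
      (∑ y ∈ fibL r k e x.1, wW f y * 1) / ∑ y ∈ fibL r k e x.1, wW f y = 1 := by
    intro e _
    simp only [mul_one]
    exact div_self (hbE_denom_pos hf x.2 e).ne'
  rw [Finset.sum_congr rfl h2]
  simp only [Finset.sum_const, nsmul_eq_mul, mul_one, Finset.card_powersetCard, Finset.card_univ,
    Fintype.card_fin]
  exact div_self hC.ne'

theorem hbM_nonneg (hf : LCW r f) (hm : 2 ≤ m) (x y : ↥(lev r k)) : 0 ≤ hbM r f k x y := by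
  unfold hbM
  refine div_nonneg (Finset.sum_nonneg fun e _ => ?_) (Nat.cast_nonneg _)
  split_ifs
  · exact div_nonneg (wW_pos hf y.2).le (hbE_denom_pos hf x.2 e).le
  · exact le_rfl

theorem fibL_symm {x y : Fin m → ℕ} {e : Finset (Fin m)} (hx : x ∈ lev r k) (hy : y ∈ lev r k) :
    y ∈ fibL r k e x ↔ x ∈ fibL r k e y := by
  constructor
  · intro h
    exact mem_filter.2 ⟨hx, fun i hi => ((mem_filter.1 h).2 i hi).symm⟩
  · intro h
    exact mem_filter.2 ⟨hy, fun i hi => ((mem_filter.1 h).2 i hi).symm⟩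

theorem fibL_eq {x y : Fin m → ℕ} {e : Finset (Fin m)} (h : y ∈ fibL r k e x) :
    fibL r k e y = fibL r k e x := by
  unfold fibL
  refine Finset.filter_congr fun z _ => ?_
  have h2 := (mem_filter.1 h).2
  constructor
  · intro h3 i hi
    rw [h3 i hi, h2 i hi]
  · intro h3 i hi
    rw [h3 i hi, h2 i hi]

/-- Reversibility. -/
theorem hbM_rev (x y : ↥(lev r k)) :
    hbPi r f k x * hbM r f k x y = hbPi r f k y * hbM r f k y x := by
  unfold hbPi hbM
  have h : ∀ e ∈ powersetCard 2 (univ : Finset (Fin m)),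
      wW f x.1 * (if y.1 ∈ fibL r k e x.1 then wW f y.1 / ∑ z ∈ fibL r k e x.1, wW f z else 0)
      = wW f y.1 * (if x.1 ∈ fibL r k e y.1 then wW f x.1 / ∑ z ∈ fibL r k e y.1, wW f z else 0) := by
    intro e _
    by_cases h1 : y.1 ∈ fibL r k e x.1
    · rw [if_pos h1, if_pos ((fibL_symm x.2 y.2).1 h1), fibL_eq h1]
      ring
    · rw [if_neg h1, if_neg (fun h2 => h1 ((fibL_symm x.2 y.2).2 h2))]
      ring
  have h2 : wW f x.1 * ∑ e ∈ powersetCard 2 (univ : Finset (Fin m)),
      (if y.1 ∈ fibL r k e x.1 then wW f y.1 / ∑ z ∈ fibL r k e x.1, wW f z else 0)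
      = wW f y.1 * ∑ e ∈ powersetCard 2 (univ : Finset (Fin m)),
      (if x.1 ∈ fibL r k e y.1 then wW f x.1 / ∑ z ∈ fibL r k e y.1, wW f z else 0) := by
    rw [Finset.mul_sum, Finset.mul_sum]
    exact Finset.sum_congr rfl h
  calc _ = (wW f x.1 * ∑ e ∈ powersetCard 2 (univ : Finset (Fin m)),
      (if y.1 ∈ fibL r k e x.1 then wW f y.1 / ∑ z ∈ fibL r k e x.1, wW f z else 0))
        / (∑ z ∈ lev r k, wW f z) / ((m.choose 2 : ℕ) : ℝ) := by
        field_simp
    _ = _ := by
        rw [h2]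
        field_simp

theorem hbPi_sum (hf : LCW r f) (x : ↥(lev r k)) : ∑ y, hbPi r f k y = 1 := by
  unfold hbPi
  rw [← Finset.sum_div, Finset.sum_coe_sort (lev r k) (fun y => wW f y)]
  refine div_self (Finset.sum_pos (fun y hy => wW_pos hf hy) ⟨x.1, x.2⟩).ne'

/-- The law is stationary for the operators. -/
theorem hbM_stat (hf : LCW r f) (hm : 2 ≤ m) (G : ↥(lev r k) → ℝ) :
    ∑ x, hbPi r f k x * (hbM r f k).mulVec G x = ∑ x, hbPi r f k x * G x := by
  unfold Matrix.mulVec dotProduct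
  simp_rw [Finset.mul_sum]
  rw [Finset.sum_comm]
  refine Finset.sum_congr rfl fun y _ => ?_
  have h1 : ∀ x, hbPi r f k x * (hbM r f k x y * G y) = hbPi r f k y * hbM r f k y x * G y := by
    intro x
    rw [← mul_assoc, hbM_rev]
  simp_rw [h1]
  rw [← Finset.sum_mul, ← Finset.mul_sum, hbM_sum hf hm, mul_one]

theorem hbM_pow_stat (hf : LCW r f) (hm : 2 ≤ m) (T : ℕ) (G : ↥(lev r k) → ℝ) :
    ∑ x, hbPi r f k x * ((hbM r f k) ^ T).mulVec G x = ∑ x, hbPi r f k x * G x := by
  induction T generalizing G with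
  | zero => simp
  | succ T ih =>
    rw [pow_succ, ← Matrix.mulVec_mulVec, ih, hbM_stat hf hm]

theorem hbM_pow_sum (hf : LCW r f) (hm : 2 ≤ m) (T : ℕ) (x : ↥(lev r k)) :
    ∑ y, ((hbM r f k) ^ T) x y = 1 := by
  induction T generalizing x with
  | zero => simp [Matrix.one_apply]
  | succ T ih =>
    have : ∀ y, ((hbM r f k) ^ (T + 1)) x y = ∑ z, hbM r f k x z * ((hbM r f k) ^ T) z y := by
      intro y
      rw [pow_succ', Matrix.mul_apply]
    simp_rw [this]
    rw [Finset.sum_comm]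
    simp_rw [← Finset.mul_sum, ih, mul_one]
    exact hbM_sum hf hm x

/-- **Total variation bound for the pair heat bath chain.** -/
theorem hb_tv (hf : LCW r f) (hm : 2 ≤ m) (x : ↥(lev r k)) (T : ℕ) :
    (1 / 2 : ℝ) * ∑ y, |((hbM r f k) ^ T) x y - hbPi r f k y|
      ≤ k * (1 - 1 / ((m.choose 2 : ℕ) : ℝ)) ^ T := by
  classical
  set a : ↥(lev r k) → ℝ := fun y => ((hbM r f k) ^ T) x y - hbPi r f k y with ha
  have hsum0 : ∑ y, a y = 0 := by
    simp only [ha]
    rw [Finset.sum_sub_distrib, hbM_pow_sum hf hm, hbPi_sum hf x]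
    ring
  set B : Finset (↥(lev r k)) := univ.filter fun y => 0 ≤ a y with hB
  have htv : (1 / 2 : ℝ) * ∑ y, |a y| = ∑ y ∈ B, a y := by
    have h1 : ∑ y, |a y| = ∑ y ∈ B, a y - ∑ y ∈ univ.filter (fun y => ¬ 0 ≤ a y), a y := by
      rw [← Finset.sum_filter_add_sum_filter_not univ (fun y => 0 ≤ a y)]
      have e1 : ∑ y ∈ univ.filter (fun y => 0 ≤ a y), |a y| = ∑ y ∈ B, a y :=
        Finset.sum_congr rfl fun y hy => abs_of_nonneg (mem_filter.1 hy).2
      have e2 : ∑ y ∈ univ.filter (fun y => ¬ 0 ≤ a y), |a y|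
          = - ∑ y ∈ univ.filter (fun y => ¬ 0 ≤ a y), a y := by
        rw [← Finset.sum_neg_distrib]
        exact Finset.sum_congr rfl fun y hy => abs_of_neg (not_le.1 (mem_filter.1 hy).2)
      rw [e1, e2]
      ring
    have h2 : ∑ y ∈ B, a y + ∑ y ∈ univ.filter (fun y => ¬ 0 ≤ a y), a y = 0 := by
      rw [hB, Finset.sum_filter_add_sum_filter_not]
      exact hsum0
    rw [h1]
    linarith
  rw [htv]
  -- the indicator of `B`
  set g : (Fin m → ℕ) → ℝ := fun y => if h : y ∈ lev r k then (if (⟨y, h⟩ : ↥(lev r k)) ∈ B then 1 else 0) else 0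
    with hg
  have hgB : ∀ y : ↥(lev r k), g y.1 = if y ∈ B then 1 else 0 := by
    intro y
    simp only [hg]
    rw [dif_pos y.2]
  have hg1 : LipL r k g 1 := by
    intro y hy y' hy' _ _ _
    have h01 : ∀ z, g z = 0 ∨ g z = 1 := by
      intro z
      simp only [hg]
      split_ifs <;> simp
    rcases h01 y with h1 | h1 <;> rcases h01 y' with h2 | h2 <;> rw [h1, h2] <;> norm_num
  set G := (hbP r f k)^[T] g with hG
  have hlip := iter_lip hf hm hg1 T
  have hC : (1 : ℝ) ≤ (m.choose 2 : ℕ) := by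
    exact_mod_cast Nat.choose_pos hm
  have h0 : 0 ≤ (1 - 1 / ((m.choose 2 : ℕ) : ℝ)) ^ T := by
    refine pow_nonneg ?_ T
    have : 1 / ((m.choose 2 : ℕ) : ℝ) ≤ 1 := by
      rw [div_le_one (by linarith)]
      exact hC
    linarith
  have hosc : ∀ y : ↥(lev r k), G x.1 - G y.1 ≤ k * (1 - 1 / ((m.choose 2 : ℕ) : ℝ)) ^ T := by
    intro y
    have h1 := lip_path h0 hlip _ x.1 x.2 y.1 y.2 rfl
    have h2 : ((dT x.1 y.1 : ℕ) : ℝ) ≤ k := by exact_mod_cast dT_le x.2
    have h3 := le_abs_self (G x.1 - G y.1)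
    nlinarith
  have hsumB : ∑ y ∈ B, a y = G x.1 - ∑ y, hbPi r f k y * G y.1 := by
    have e1 : ∀ y, ((hbM r f k) ^ T).mulVec (fun y => g y.1) y = G y.1 :=
      fun y => hbM_pow_mulVec g T y
    have e2 : ∑ y, hbPi r f k y * G y.1 = ∑ y ∈ B, hbPi r f k y := by
      simp_rw [← e1]
      rw [hbM_pow_stat hf hm T (fun y => g y.1)]
      simp_rw [hgB]
      simp only [mul_ite, mul_one, mul_zero]
      rw [Finset.sum_ite_mem, Finset.univ_inter]
    have e3 : G x.1 = ∑ y ∈ B, ((hbM r f k) ^ T) x y := by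
      rw [← e1]
      unfold Matrix.mulVec dotProduct
      simp_rw [hgB]
      simp only [mul_ite, mul_one, mul_zero]
      rw [Finset.sum_ite_mem, Finset.univ_inter]
    rw [e2, e3]
    simp only [ha]
    rw [Finset.sum_sub_distrib]
  rw [hsumB]
  have hpos : ∀ y, 0 ≤ hbPi r f k y := fun y =>
    div_nonneg (wW_pos hf y.2).le (Finset.sum_nonneg fun z hz => (wW_pos hf hz).le)
  calc G x.1 - ∑ y, hbPi r f k y * G y.1
      = ∑ y, hbPi r f k y * (G x.1 - G y.1) := by
        simp_rw [mul_sub]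
        rw [Finset.sum_sub_distrib, ← Finset.sum_mul, hbPi_sum hf x, one_mul]
    _ ≤ ∑ y, hbPi r f k y * (k * (1 - 1 / ((m.choose 2 : ℕ) : ℝ)) ^ T) :=
        Finset.sum_le_sum fun y _ => mul_le_mul_of_nonneg_left (hosc y) (hpos y)
    _ = _ := by
        rw [← Finset.sum_mul, hbPi_sum hf x, one_mul]

/-- Binomial weights are admissible. -/
theorem choose_tp2 (R a b : ℕ) (hab : a ≤ b) :
    (R.choose (b + 1) : ℝ) * R.choose a ≤ R.choose b * R.choose (a + 1) := by
  by_cases hb : R ≤ b
  · have : R.choose (b + 1) = 0 := Nat.choose_eq_zero_of_lt (by omega)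
    rw [this]
    simp only [Nat.cast_zero, zero_mul]
    positivity
  · push Not at hb
    have h1 : (R.choose (b + 1) : ℝ) * (b + 1) = R.choose b * (R - b : ℝ) := by
      have := Nat.choose_succ_right_eq R b
      have h2 : ((R - b : ℕ) : ℝ) = (R : ℝ) - b := by
        rw [Nat.cast_sub hb.le]
      rw [← h2]
      exact_mod_cast this
    have h3 : (R.choose (a + 1) : ℝ) * (a + 1) = R.choose a * (R - a : ℝ) := by
      have := Nat.choose_succ_right_eq R a
      have h2 : ((R - a : ℕ) : ℝ) = (R : ℝ) - a := by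
        rw [Nat.cast_sub (by omega)]
      rw [← h2]
      exact_mod_cast this
    have hab' : (a : ℝ) ≤ b := by exact_mod_cast hab
    have hbR : (b : ℝ) ≤ R := by exact_mod_cast hb.le
    have hA : (0 : ℝ) ≤ R.choose a := by positivity
    have hB : (0 : ℝ) ≤ R.choose b := by positivity
    have hX : ((R.choose (b + 1) : ℝ) * R.choose a) * ((b + 1) * (a + 1))
        ≤ ((R.choose b : ℝ) * R.choose (a + 1)) * ((b + 1) * (a + 1)) := by
      have e1 : ((R.choose (b + 1) : ℝ) * R.choose a) * ((b + 1) * (a + 1))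
          = R.choose b * R.choose a * ((R - b) * (a + 1)) := by
        rw [show ((R.choose (b + 1) : ℝ) * R.choose a) * ((b + 1) * (a + 1))
          = ((R.choose (b + 1) : ℝ) * (b + 1)) * R.choose a * (a + 1) by ring, h1]
        ring
      have e2 : ((R.choose b : ℝ) * R.choose (a + 1)) * ((b + 1) * (a + 1))
          = R.choose b * R.choose a * ((R - a) * (b + 1)) := by
        rw [show ((R.choose b : ℝ) * R.choose (a + 1)) * ((b + 1) * (a + 1))
          = (R.choose b : ℝ) * ((R.choose (a + 1) : ℝ) * (a + 1)) * (b + 1) by ring, h3]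
        ring
      rw [e1, e2]
      refine mul_le_mul_of_nonneg_left ?_ (mul_nonneg hB hA)
      nlinarith
    have hpos : (0 : ℝ) < (b + 1) * (a + 1) := by positivity
    exact le_of_mul_le_mul_right hX hpos

theorem bw_tp2 (R : ℕ) {p : ℝ} (h0 : 0 < p) (h1 : p < 1) : TP2 (bw R p) := by
  intro a b hab
  unfold bw
  have hq : 0 < 1 - p := by linarith
  by_cases hb : R ≤ b
  · have : R.choose (b + 1) = 0 := Nat.choose_eq_zero_of_lt (by omega)
    rw [this]
    simp only [Nat.cast_zero, zero_mul]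
    positivity
  · push Not at hb
    have e1 : p ^ (b + 1) * (1 - p) ^ (R - (b + 1)) * (p ^ a * (1 - p) ^ (R - a))
        = p ^ b * (1 - p) ^ (R - b) * (p ^ (a + 1) * (1 - p) ^ (R - (a + 1))) := by
      have e2 : R - b = (R - (b + 1)) + 1 := by omega
      have e3 : R - a = (R - (a + 1)) + 1 := by omega
      rw [e2, e3]
      ring
    have h2 := choose_tp2 R a b hab
    have hP : 0 ≤ p ^ b * (1 - p) ^ (R - b) * (p ^ (a + 1) * (1 - p) ^ (R - (a + 1))) := by
      positivity
    calc (R.choose (b + 1) : ℝ) * p ^ (b + 1) * (1 - p) ^ (R - (b + 1))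
          * ((R.choose a : ℝ) * p ^ a * (1 - p) ^ (R - a))
        = ((R.choose (b + 1) : ℝ) * R.choose a)
          * (p ^ (b + 1) * (1 - p) ^ (R - (b + 1)) * (p ^ a * (1 - p) ^ (R - a))) := by ring
      _ = ((R.choose (b + 1) : ℝ) * R.choose a)
          * (p ^ b * (1 - p) ^ (R - b) * (p ^ (a + 1) * (1 - p) ^ (R - (a + 1)))) := by rw [e1]
      _ ≤ ((R.choose b : ℝ) * R.choose (a + 1))
          * (p ^ b * (1 - p) ^ (R - b) * (p ^ (a + 1) * (1 - p) ^ (R - (a + 1)))) :=
          mul_le_mul_of_nonneg_right h2 hP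
      _ = _ := by ring

/-- The product of binomials is an admissible weight. -/
theorem bw_LCW (r : Fin m → ℕ) {p : Fin m → ℝ} (h0 : ∀ i, 0 < p i) (h1 : ∀ i, p i < 1) :
    LCW r (fun i => bw (r i) (p i)) where
  pos := by
    intro i k hk
    unfold bw
    have : 0 < 1 - p i := by linarith [h1 i]
    have h2 : 0 < p i := h0 i
    have h3 : (0 : ℝ) < (r i).choose k := by exact_mod_cast Nat.choose_pos hk
    positivity
  zero := by
    intro i k hk
    unfold bw
    rw [Nat.choose_eq_zero_of_lt hk]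
    simp
  tp2 := fun i => bw_tp2 (r i) (h0 i) (h1 i)

end Vale.Agent.Lib.P328.Walk
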