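import Mathlib

/-!
# Lazy random walks on finite weighted networks

`cond` is a symmetric nonnegative weight on pairs of states. The lazy walk stays with probability
one half and otherwise moves along an edge chosen with probability proportional to its weight.
A Poincare inequality for the Dirichlet form gives decay of the variance and a bound for the total
variation distance to the stationary law.
-/

namespace Vale.Agent.Lib.P328.Walk

open Finset

variable {V : Type*} [Fintype V] [DecidableEq V]

/-- The total weight at a state. -/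
def ndeg (cond : V → V → ℝ) (v : V) : ℝ := ∑ w, cond v w

/-- The lazy walk: stay with probability `1 / 2`, else move proportionally to the weights. -/
noncomputable def lazyWalk (cond : V → V → ℝ) : Matrix V V ℝ :=
  fun v w => (if v = w then (1 / 2 : ℝ) else 0) + cond v w / (2 * ndeg cond v)

/-- The total weight of the network. -/
def nZ (cond : V → V → ℝ) : ℝ := ∑ v, ndeg cond v

/-- The stationary law of the lazy walk. -/
noncomputable def npi (cond : V → V → ℝ) (v : V) : ℝ := ndeg cond v / nZ cond

/-- The Dirichlet form of the network with respect to the weight `1 / nZ`. -/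
noncomputable def nDir (cond : V → V → ℝ) (f : V → ℝ) : ℝ :=
  (∑ v, ∑ w, cond v w * (f v - f w) ^ 2) / (2 * nZ cond)

/-- The variance of `f` under the stationary law. -/
noncomputable def nVar (cond : V → V → ℝ) (f : V → ℝ) : ℝ :=
  ∑ v, npi cond v * f v ^ 2 - (∑ v, npi cond v * f v) ^ 2

section Basic

variable {cond : V → V → ℝ} (hsymm : ∀ v w, cond v w = cond w v) (hnn : ∀ v w, 0 ≤ cond v w)
  (hdeg : ∀ v, 0 < ndeg cond v)

include hdeg in
theorem nZ_pos [Nonempty V] : 0 < nZ cond :=
  Finset.sum_pos (fun v _ => hdeg v) Finset.univ_nonempty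

include hdeg in
theorem npi_pos [Nonempty V] (v : V) : 0 < npi cond v := div_pos (hdeg v) (nZ_pos hdeg)

include hdeg in
theorem npi_sum [Nonempty V] : ∑ v, npi cond v = 1 := by
  unfold npi
  rw [← Finset.sum_div]
  exact div_self (nZ_pos hdeg).ne'

include hnn hdeg in
theorem lazyWalk_nonneg (v w : V) : 0 ≤ lazyWalk cond v w := by
  unfold lazyWalk
  have h1 : 0 ≤ cond v w / (2 * ndeg cond v) :=
    div_nonneg (hnn v w) (by have := hdeg v; positivity)
  split_ifs <;> linarith

include hdeg in
theorem lazyWalk_sum (v : V) : ∑ w, lazyWalk cond v w = 1 := by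
  unfold lazyWalk
  rw [Finset.sum_add_distrib, ← Finset.sum_div]
  have h := (hdeg v).ne'
  change (∑ w, if v = w then (1 / 2 : ℝ) else 0) + ndeg cond v / (2 * ndeg cond v) = 1
  rw [Finset.sum_ite_eq]
  simp only [Finset.mem_univ, if_true]
  field_simp
  norm_num

include hsymm hdeg in
theorem lazyWalk_rev [Nonempty V] (v w : V) :
    npi cond v * lazyWalk cond v w = npi cond w * lazyWalk cond w v := by
  unfold npi lazyWalk
  have hv := (hdeg v).ne'
  have hw := (hdeg w).ne'
  have hZ := (nZ_pos hdeg).ne'
  by_cases h : v = w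
  · subst h; rfl
  · have h' : w ≠ v := fun e => h e.symm
    rw [if_neg h, if_neg h', hsymm w v]
    field_simp
    ring

include hsymm hdeg in
theorem lazyWalk_stat [Nonempty V] (w : V) : ∑ v, npi cond v * lazyWalk cond v w = npi cond w := by
  have : ∀ v, npi cond v * lazyWalk cond v w = npi cond w * lazyWalk cond w v :=
    fun v => lazyWalk_rev hsymm hdeg v w
  simp_rw [this]
  rw [← Finset.mul_sum, lazyWalk_sum hdeg, mul_one]

end Basic

section Decay

variable {cond : V → V → ℝ} (hsymm : ∀ v w, cond v w = cond w v) (hnn : ∀ v w, 0 ≤ cond v w)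
  (hdeg : ∀ v, 0 < ndeg cond v)

/-- The non lazy step. -/
noncomputable def step0 (cond : V → V → ℝ) (f : V → ℝ) (v : V) : ℝ :=
  ∑ w, cond v w * f w / ndeg cond v

include hdeg in
theorem lazy_mulVec (f : V → ℝ) (v : V) :
    (lazyWalk cond).mulVec f v = (f v + step0 cond f v) / 2 := by
  unfold Matrix.mulVec dotProduct lazyWalk step0
  have h := (hdeg v).ne'
  have : ∀ w, ((if v = w then (1 / 2 : ℝ) else 0) + cond v w / (2 * ndeg cond v)) * f w
      = (if v = w then f w / 2 else 0) + (cond v w * f w / ndeg cond v) / 2 := by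
    intro w
    split_ifs <;> field_simp <;> ring
  simp_rw [this]
  rw [Finset.sum_add_distrib, Finset.sum_ite_eq, ← Finset.sum_div]
  simp only [Finset.mem_univ, if_true]
  ring

include hnn hdeg in
/-- Jensen for the non lazy step. -/
theorem step0_sq_le (f : V → ℝ) (v : V) :
    step0 cond f v ^ 2 ≤ ∑ w, cond v w * f w ^ 2 / ndeg cond v := by
  have hd := hdeg v
  unfold step0
  have h1 : ∑ w, cond v w * f w / ndeg cond v = (∑ w, cond v w * f w) / ndeg cond v :=
    (Finset.sum_div _ _ _).symm
  have h2 : ∑ w, cond v w * f w ^ 2 / ndeg cond v = (∑ w, cond v w * f w ^ 2) / ndeg cond v :=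
    (Finset.sum_div _ _ _).symm
  rw [h1, h2, div_pow, div_le_div_iff₀ (by positivity) hd]
  have hCS : (∑ w, cond v w * f w) ^ 2 ≤ (∑ w, cond v w) * ∑ w, cond v w * f w ^ 2 := by
    have := Finset.sum_mul_sq_le_sq_mul_sq Finset.univ (fun w => Real.sqrt (cond v w))
      (fun w => Real.sqrt (cond v w) * f w)
    have e1 : ∀ w, Real.sqrt (cond v w) * (Real.sqrt (cond v w) * f w) = cond v w * f w := by
      intro w
      rw [← mul_assoc, Real.mul_self_sqrt (hnn v w)]
    have e2 : ∀ w, Real.sqrt (cond v w) ^ 2 = cond v w := fun w => Real.sq_sqrt (hnn v w)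
    have e3 : ∀ w, (Real.sqrt (cond v w) * f w) ^ 2 = cond v w * f w ^ 2 := by
      intro w
      rw [mul_pow, e2]
    simp_rw [e1, e2, e3] at this
    exact this
  change (∑ w, cond v w * f w) ^ 2 * ndeg cond v
      ≤ (∑ w, cond v w * f w ^ 2) * ndeg cond v ^ 2
  have hdd : ndeg cond v = ∑ w, cond v w := rfl
  rw [← hdd] at hCS
  calc (∑ w, cond v w * f w) ^ 2 * ndeg cond v
      ≤ (ndeg cond v * ∑ w, cond v w * f w ^ 2) * ndeg cond v :=
        mul_le_mul_of_nonneg_right hCS hd.le
    _ = (∑ w, cond v w * f w ^ 2) * ndeg cond v ^ 2 := by ring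

include hsymm hnn hdeg in
theorem step0_norm_le [Nonempty V] (f : V → ℝ) :
    ∑ v, npi cond v * step0 cond f v ^ 2 ≤ ∑ v, npi cond v * f v ^ 2 := by
  have hZ := nZ_pos hdeg
  calc ∑ v, npi cond v * step0 cond f v ^ 2
      ≤ ∑ v, npi cond v * ∑ w, cond v w * f w ^ 2 / ndeg cond v := by
        refine Finset.sum_le_sum fun v _ => ?_
        exact mul_le_mul_of_nonneg_left (step0_sq_le hnn hdeg f v) (npi_pos hdeg v).le
    _ = ∑ v, ∑ w, cond v w * f w ^ 2 / nZ cond := by
        refine Finset.sum_congr rfl fun v _ => ?_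
        rw [Finset.mul_sum]
        refine Finset.sum_congr rfl fun w _ => ?_
        unfold npi
        have := (hdeg v).ne'
        field_simp
    _ = ∑ w, ∑ v, cond v w * f w ^ 2 / nZ cond := Finset.sum_comm
    _ = ∑ w, npi cond w * f w ^ 2 := by
        refine Finset.sum_congr rfl fun w _ => ?_
        unfold npi ndeg
        rw [← Finset.sum_div, ← Finset.sum_mul]
        simp_rw [hsymm _ w]
        ring

include hsymm hdeg in
theorem step0_inner [Nonempty V] (f : V → ℝ) :
    ∑ v, npi cond v * f v ^ 2 - ∑ v, npi cond v * (f v * step0 cond f v) = nDir cond f := by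
  have hZ := nZ_pos hdeg
  have e1 : ∀ v, npi cond v * (f v * step0 cond f v)
      = (∑ w, cond v w * (f v * f w)) / nZ cond := by
    intro v
    unfold npi step0
    have := (hdeg v).ne'
    rw [Finset.mul_sum, Finset.mul_sum, Finset.sum_div]
    refine Finset.sum_congr rfl fun w _ => ?_
    field_simp
  have e2 : ∑ v, npi cond v * f v ^ 2 = (∑ v, ∑ w, cond v w * f v ^ 2) / nZ cond := by
    rw [Finset.sum_div]
    refine Finset.sum_congr rfl fun v _ => ?_
    unfold npi ndeg
    rw [← Finset.sum_mul]
    ring
  have e3 : ∑ v, ∑ w, cond v w * f w ^ 2 = ∑ v, ∑ w, cond v w * f v ^ 2 := by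
    rw [Finset.sum_comm]
    refine Finset.sum_congr rfl fun v _ => ?_
    refine Finset.sum_congr rfl fun w _ => ?_
    rw [hsymm]
  simp_rw [e1]
  rw [← Finset.sum_div, e2]
  unfold nDir
  have e4 : ∑ v, ∑ w, cond v w * (f v - f w) ^ 2
      = 2 * (∑ v, ∑ w, cond v w * f v ^ 2) - 2 * ∑ v, ∑ w, cond v w * (f v * f w) := by
    have : ∀ v w, cond v w * (f v - f w) ^ 2
        = cond v w * f v ^ 2 + cond v w * f w ^ 2 - 2 * (cond v w * (f v * f w)) := by
      intro v w; ring
    simp_rw [this, Finset.sum_sub_distrib, Finset.sum_add_distrib, ← Finset.mul_sum]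
    rw [e3]
    ring
  rw [e4]
  field_simp

include hsymm hdeg in
theorem lazy_mean [Nonempty V] (f : V → ℝ) :
    ∑ v, npi cond v * (lazyWalk cond).mulVec f v = ∑ v, npi cond v * f v := by
  unfold Matrix.mulVec dotProduct
  simp_rw [Finset.mul_sum]
  rw [Finset.sum_comm]
  refine Finset.sum_congr rfl fun w _ => ?_
  have := lazyWalk_stat hsymm hdeg (cond := cond) w
  calc ∑ v, npi cond v * (lazyWalk cond v w * f w)
      = (∑ v, npi cond v * lazyWalk cond v w) * f w := by
        rw [Finset.sum_mul]
        exact Finset.sum_congr rfl fun v _ => (mul_assoc _ _ _).symm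
    _ = npi cond w * f w := by rw [this]

include hsymm hnn hdeg in
/-- One step decreases the variance by half of the Dirichlet form. -/
theorem nVar_step_le [Nonempty V] (f : V → ℝ) :
    nVar cond ((lazyWalk cond).mulVec f) ≤ nVar cond f - nDir cond f / 2 := by
  unfold nVar
  rw [lazy_mean hsymm hdeg]
  have h1 := step0_norm_le hsymm hnn hdeg f
  have h2 := step0_inner hsymm hdeg f
  have h3 : ∑ v, npi cond v * (lazyWalk cond).mulVec f v ^ 2
      = (∑ v, npi cond v * f v ^ 2 + 2 * ∑ v, npi cond v * (f v * step0 cond f v)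
          + ∑ v, npi cond v * step0 cond f v ^ 2) / 4 := by
    rw [Finset.mul_sum, ← Finset.sum_add_distrib, ← Finset.sum_add_distrib, Finset.sum_div]
    refine Finset.sum_congr rfl fun v _ => ?_
    rw [lazy_mulVec hdeg]
    ring
  rw [h3]
  nlinarith [h1, h2]

include hsymm hnn hdeg in
/-- A Poincare inequality gives geometric decay of the variance. -/
theorem nVar_one_step [Nonempty V] {C : ℝ} (hC : 0 < C)
    (hP : ∀ f : V → ℝ, nVar cond f ≤ C * nDir cond f) (g : V → ℝ) :
    nVar cond ((lazyWalk cond).mulVec g) ≤ (1 - 1 / (2 * C)) * nVar cond g := by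
  have h1 := nVar_step_le hsymm hnn hdeg g
  have h2 := hP g
  have h3 : nVar cond g / (2 * C) ≤ nDir cond g / 2 := by
    rw [div_le_iff₀ (by positivity)]
    calc nVar cond g ≤ C * nDir cond g := h2
      _ = nDir cond g / 2 * (2 * C) := by ring
  have h4 : (1 - 1 / (2 * C)) * nVar cond g = nVar cond g - nVar cond g / (2 * C) := by ring
  rw [h4]
  linarith

end Decay

section TV

variable {cond : V → V → ℝ} (hsymm : ∀ v w, cond v w = cond w v) (hnn : ∀ v w, 0 ≤ cond v w)
  (hdeg : ∀ v, 0 < ndeg cond v)

include hsymm hdeg in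
/-- The density of the law of the walk after `t + 1` steps is the walk applied to the density
after `t` steps. -/
theorem density_step [Nonempty V] (x : V) (t : ℕ) :
    (fun y => (lazyWalk cond ^ (t + 1)) x y / npi cond y)
      = (lazyWalk cond).mulVec fun y => (lazyWalk cond ^ t) x y / npi cond y := by
  funext y
  have hy := (npi_pos hdeg y).ne'
  rw [pow_succ, Matrix.mul_apply]
  unfold Matrix.mulVec dotProduct
  rw [Finset.sum_div]
  refine Finset.sum_congr rfl fun z _ => ?_
  have hz := (npi_pos hdeg z).ne'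
  have := lazyWalk_rev hsymm hdeg (cond := cond) z y
  field_simp
  linear_combination (lazyWalk cond ^ t) x z * this

include hdeg in
theorem lazyWalk_pow_sum (x : V) (t : ℕ) : ∑ y, (lazyWalk cond ^ t) x y = 1 := by
  induction t generalizing x with
  | zero =>
    simp [Matrix.one_apply]
  | succ t ih =>
    have : ∀ y, (lazyWalk cond ^ (t + 1)) x y = ∑ z, lazyWalk cond x z * (lazyWalk cond ^ t) z y := by
      intro y
      rw [pow_succ', Matrix.mul_apply]
    simp_rw [this]
    rw [Finset.sum_comm]
    simp_rw [← Finset.mul_sum, ih, mul_one]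
    exact lazyWalk_sum hdeg x

include hnn hdeg in
theorem lazyWalk_pow_nonneg (x y : V) (t : ℕ) : 0 ≤ (lazyWalk cond ^ t) x y := by
  induction t generalizing x with
  | zero =>
    rw [pow_zero, Matrix.one_apply]
    split_ifs <;> norm_num
  | succ t ih =>
    rw [pow_succ', Matrix.mul_apply]
    exact Finset.sum_nonneg fun z _ => mul_nonneg (lazyWalk_nonneg hnn hdeg x z) (ih z)

include hsymm hnn hdeg in
/-- Total variation bound from a start `x`, given a Poincare inequality. -/
theorem tv_le_of_poincare [Nonempty V] {C : ℝ} (hC : 1 / 2 ≤ C)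
    (hP : ∀ f : V → ℝ, nVar cond f ≤ C * nDir cond f) (x : V) (t : ℕ) :
    (1 / 2 : ℝ) * ∑ y, |(lazyWalk cond ^ t) x y - npi cond y|
      ≤ (1 / 2 : ℝ) * Real.sqrt ((1 - 1 / (2 * C)) ^ t / npi cond x) := by
  have hC0 : 0 < C := by linarith
  have hC1 : 0 ≤ 1 - 1 / (2 * C) := by
    have : 1 / (2 * C) ≤ 1 := by
      rw [div_le_one (by positivity)]
      linarith
    linarith
  have hpi := fun y => npi_pos hdeg (cond := cond) y
  set h : ℕ → V → ℝ := fun t y => (lazyWalk cond ^ t) x y / npi cond y with hh
  have hvar : ∀ t, nVar cond (h t) ≤ (1 - 1 / (2 * C)) ^ t / npi cond x := by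
    intro t
    induction t with
    | zero =>
      have e1 : ∀ y, npi cond y * h 0 y ^ 2 = if y = x then 1 / npi cond x else 0 := by
        intro y
        simp only [hh, pow_zero, Matrix.one_apply]
        by_cases hy : y = x
        · subst hy
          have := (hpi y).ne'
          simp only [if_true]
          field_simp
        · have hy' : x ≠ y := fun e => hy e.symm
          simp [hy, hy']
      unfold nVar
      simp_rw [e1]
      rw [Finset.sum_ite_eq' Finset.univ x]
      simp only [Finset.mem_univ, if_true, pow_zero, one_div]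
      nlinarith [sq_nonneg (∑ v, npi cond v * h 0 v)]
    | succ t ih =>
      have e : h (t + 1) = (lazyWalk cond).mulVec (h t) := density_step hsymm hdeg x t
      rw [e]
      refine (nVar_one_step hsymm hnn hdeg hC0 hP (h t)).trans ?_
      rw [pow_succ', mul_div_assoc]
      exact mul_le_mul_of_nonneg_left ih hC1
  have hmean : ∑ y, npi cond y * h t y = 1 := by
    have : ∀ y, npi cond y * h t y = (lazyWalk cond ^ t) x y := by
      intro y
      simp only [hh]
      have := (hpi y).ne'
      field_simp
    simp_rw [this]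
    exact lazyWalk_pow_sum hdeg x t
  have hsum : ∑ y, |(lazyWalk cond ^ t) x y - npi cond y|
      = ∑ y, npi cond y * |h t y - 1| := by
    refine Finset.sum_congr rfl fun y _ => ?_
    have e : (lazyWalk cond ^ t) x y - npi cond y = npi cond y * (h t y - 1) := by
      simp only [hh]
      have := (hpi y).ne'
      field_simp
    rw [e, abs_mul, abs_of_pos (hpi y)]
  have hCS : (∑ y, npi cond y * |h t y - 1|) ^ 2 ≤ nVar cond (h t) := by
    have h1 := Finset.sum_mul_sq_le_sq_mul_sq Finset.univ (fun v => Real.sqrt (npi cond v))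
      (fun v => Real.sqrt (npi cond v) * |h t v - 1|)
    have hpn : ∀ v, 0 ≤ npi cond v := fun v => (hpi v).le
    have e1 : ∀ v, Real.sqrt (npi cond v) * (Real.sqrt (npi cond v) * |h t v - 1|)
        = npi cond v * |h t v - 1| := by
      intro v
      rw [← mul_assoc, Real.mul_self_sqrt (hpn v)]
    have e2 : ∀ v, Real.sqrt (npi cond v) ^ 2 = npi cond v := fun v => Real.sq_sqrt (hpn v)
    have e3 : ∀ v, (Real.sqrt (npi cond v) * |h t v - 1|) ^ 2
        = npi cond v * (h t v - 1) ^ 2 := by
      intro v
      rw [mul_pow, e2, sq_abs]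
    simp_rw [e1, e2, e3] at h1
    rw [npi_sum hdeg, one_mul] at h1
    have e4 : ∑ v, npi cond v * (h t v - 1) ^ 2 = nVar cond (h t) := by
      unfold nVar
      rw [hmean]
      have : ∀ v, npi cond v * (h t v - 1) ^ 2
          = npi cond v * h t v ^ 2 - 2 * (npi cond v * h t v) + npi cond v := by
        intro v; ring
      simp_rw [this]
      rw [Finset.sum_add_distrib, Finset.sum_sub_distrib, ← Finset.mul_sum, hmean, npi_sum hdeg]
      ring
    rw [e4] at h1
    exact h1
  rw [hsum]
  refine mul_le_mul_of_nonneg_left ?_ (by norm_num)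
  apply Real.le_sqrt_of_sq_le
  exact hCS.trans (hvar t)

end TV

end Vale.Agent.Lib.P328.Walk
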