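import Vale.Agent.Lib.P328.Walk.Tree
import Vale.Agent.Lib.P328.Cap.Sym
import Vale.Agent.Lib.P328.Sparse.Shift
import Vale.Agent.Lib.P328.CapS.Base

/-!
# The tree of partially filled tables

A node `(k, T)` is a table with the first `k` columns filled with the right sums and the others
zero, with row sums at most `r`. Its residual margins are `rres r T` and `cres c k`. The leaves
below a node correspond to the tables with these residual margins. The edge weight of a node is
the estimate `betaC * Ihat` of its residual margins. So the estimate with a factor `ρ` (for all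
margins) gives the hypotheses of the walk on the tree.
-/

namespace Vale.Agent.Lib.P328.Walk

open Finset Vale.Agent.Lib.P328.Cap

variable {m n : ℕ}

/-- The first `k` columns of `T`, the others set to zero. -/
def trunc (k : ℕ) (T : Fin n → Fin m → ℕ) : Fin n → Fin m → ℕ := fun j => if j.1 < k then T j else 0

/-- The residual row sums. -/
def rres (r : Fin m → ℕ) (T : Fin n → Fin m → ℕ) : Fin m → ℕ := fun i => r i - ∑ j, T j i

/-- The residual column sums after the first `k` columns. -/
def cres (c : Fin n → ℕ) (k : ℕ) : Fin n → ℕ := fun j => if j.1 < k then 0 else c j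

/-- The nodes of the tree: the first `k` columns are filled. -/
def nodeSet (r : Fin m → ℕ) (c : Fin n → ℕ) : Finset (ℕ × (Fin n → Fin m → ℕ)) :=
  (range (n + 1) ×ˢ Fintype.piFinset fun _ => Fintype.piFinset fun i => range (r i + 1)).filter
    fun v => (∀ j, v.1 ≤ j.1 → v.2 j = 0) ∧ (∀ j, j.1 < v.1 → ∑ i, v.2 j i = c j) ∧
      ∀ i, ∑ j, v.2 j i ≤ r i

theorem mem_nodeSet {r : Fin m → ℕ} {c : Fin n → ℕ} {v : ℕ × (Fin n → Fin m → ℕ)} :
    v ∈ nodeSet r c ↔ v.1 ≤ n ∧ (∀ j, v.1 ≤ j.1 → v.2 j = 0) ∧
      (∀ j, j.1 < v.1 → ∑ i, v.2 j i = c j) ∧ ∀ i, ∑ j, v.2 j i ≤ r i := by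
  unfold nodeSet
  simp only [mem_filter, mem_product, mem_range, Fintype.mem_piFinset]
  constructor
  · rintro ⟨⟨h1, _⟩, h2⟩
    exact ⟨by omega, h2⟩
  · rintro ⟨h1, h2, h3, h4⟩
    refine ⟨⟨by omega, fun j i => ?_⟩, h2, h3, h4⟩
    have : v.2 j i ≤ ∑ j, v.2 j i :=
      Finset.single_le_sum (f := fun j => v.2 j i) (fun _ _ => Nat.zero_le _) (Finset.mem_univ j)
    have := h4 i
    omega

/-- A node of the tree. -/
abbrev Node (r : Fin m → ℕ) (c : Fin n → ℕ) := ↥(nodeSet r c)

/-- The root of the tree: no column is filled. -/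
def rootN (r : Fin m → ℕ) (c : Fin n → ℕ) : Node r c :=
  ⟨(0, fun _ _ => 0), by
    rw [mem_nodeSet]
    refine ⟨Nat.zero_le _, fun _ _ => rfl, fun j hj => absurd hj (Nat.not_lt_zero _), fun i => ?_⟩
    simp⟩

theorem trunc_mem {r : Fin m → ℕ} {c : Fin n → ℕ} (v : Node r c) {l : ℕ} (hl : l ≤ v.1.1) :
    (l, trunc l v.1.2) ∈ nodeSet r c := by
  obtain ⟨h1, h2, h3, h4⟩ := mem_nodeSet.1 v.2
  rw [mem_nodeSet]
  refine ⟨hl.trans h1, ?_, ?_, ?_⟩
  · intro j hj
    simp only [trunc]
    rw [if_neg (by omega)]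
  · intro j hj
    simp only [trunc] at hj ⊢
    rw [if_pos hj]
    exact h3 j (by omega)
  · intro i
    refine le_trans ?_ (h4 i)
    refine Finset.sum_le_sum fun j _ => ?_
    simp only [trunc]
    split_ifs
    · exact le_rfl
    · exact Nat.zero_le _

/-- The parent of a node: forget the last filled column. -/
def parN {r : Fin m → ℕ} {c : Fin n → ℕ} (v : Node r c) : Node r c :=
  ⟨(v.1.1 - 1, trunc (v.1.1 - 1) v.1.2), trunc_mem v (by omega)⟩

theorem node_zero {r : Fin m → ℕ} {c : Fin n → ℕ} (v : Node r c) (h : v.1.1 = 0) :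
    v = rootN r c := by
  obtain ⟨h1, h2, h3, h4⟩ := mem_nodeSet.1 v.2
  apply Subtype.ext
  apply Prod.ext
  · exact h
  · funext j
    funext i
    have := h2 j (by omega)
    simp [rootN, this]

/-- The tree of partially filled tables. -/
def tabTree (r : Fin m → ℕ) (c : Fin n → ℕ) : RTree (Node r c) where
  root := rootN r c
  par := parN
  dep := fun v => v.1.1
  dep_root := rfl
  dep_par := by
    intro v hv
    have : v.1.1 ≠ 0 := fun h => hv (node_zero v h)
    simp only [parN]
    omega

/-- The edge weight of a node: the estimate `betaC * Ihat` of the residual margins. -/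
noncomputable def Aw (r : Fin m → ℕ) (c : Fin n → ℕ) (v : Node r c) : ℝ :=
  betaC (cres c v.1.1) * (Ihat (rres r v.1.2) (cres c v.1.1)).toReal

/-- The leaves of the tree: the complete tables. -/
def leafSet (r : Fin m → ℕ) (c : Fin n → ℕ) : Finset (Node r c) :=
  univ.filter fun v => v.1.1 = n

theorem trunc_self {r : Fin m → ℕ} {c : Fin n → ℕ} (v : Node r c) : trunc v.1.1 v.1.2 = v.1.2 := by
  obtain ⟨h1, h2, h3, h4⟩ := mem_nodeSet.1 v.2
  funext j
  simp only [trunc]
  split_ifs with h
  · rfl
  · exact (h2 j (by omega)).symm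

theorem trunc_trunc (a b : ℕ) (hab : a ≤ b) (T : Fin n → Fin m → ℕ) :
    trunc a (trunc b T) = trunc a T := by
  funext j
  simp only [trunc]
  split_ifs <;> first | rfl | omega

theorem iter_parN {r : Fin m → ℕ} {c : Fin n → ℕ} (v : Node r c) (i : ℕ) :
    (parN^[i] v).1 = (v.1.1 - i, trunc (v.1.1 - i) v.1.2) := by
  induction i with
  | zero =>
    simp only [Function.iterate_zero, id_eq, Nat.sub_zero]
    rw [trunc_self]
  | succ i ih =>
    rw [Function.iterate_succ_apply']
    simp only [parN]
    rw [ih]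
    simp only
    have : v.1.1 - i - 1 = v.1.1 - (i + 1) := by omega
    rw [this, trunc_trunc _ _ (by omega)]

theorem mem_anc_iff {r : Fin m → ℕ} {c : Fin n → ℕ} (v u : Node r c) :
    u ∈ anc (tabTree r c) v ↔ 1 ≤ u.1.1 ∧ u.1.1 ≤ v.1.1 ∧ trunc u.1.1 v.1.2 = u.1.2 := by
  unfold anc
  simp only [mem_image, mem_range]
  constructor
  · rintro ⟨i, hi, rfl⟩
    have h1 := iter_parN v i
    have e : (tabTree r c).par = parN := rfl
    have hdep : (tabTree r c).dep v = v.1.1 := rfl
    rw [hdep] at hi
    rw [e, h1]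
    simp only
    exact ⟨by omega, by omega, trivial⟩
  · rintro ⟨h1, h2, h3⟩
    refine ⟨v.1.1 - u.1.1, ?_, ?_⟩
    · have hdep : (tabTree r c).dep v = v.1.1 := rfl
      rw [hdep]
      omega
    · apply Subtype.ext
      have e : (tabTree r c).par = parN := rfl
      rw [e, iter_parN]
      have : v.1.1 - (v.1.1 - u.1.1) = u.1.1 := by omega
      rw [this, h3]

section Count

variable {r : Fin m → ℕ} {c : Fin n → ℕ}

theorem sum_balance (hsum : ∑ i, r i = ∑ j, c j) (v : Node r c) :
    ∑ i, rres r v.1.2 i = ∑ j, cres c v.1.1 j := by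
  obtain ⟨h1, h2, h3, h4⟩ := mem_nodeSet.1 v.2
  have e1 : ∑ i, (rres r v.1.2 i + ∑ j, v.1.2 j i) = ∑ i, r i := by
    refine Finset.sum_congr rfl fun i _ => ?_
    simp only [rres]
    exact Nat.sub_add_cancel (h4 i)
  have e2 : ∑ j, (cres c v.1.1 j + ∑ i, v.1.2 j i) = ∑ j, c j := by
    refine Finset.sum_congr rfl fun j _ => ?_
    simp only [cres]
    by_cases hj : j.1 < v.1.1
    · rw [if_pos hj, h3 j hj, zero_add]
    · rw [if_neg hj, h2 j (by omega)]
      simp
  rw [Finset.sum_add_distrib] at e1 e2
  rw [Finset.sum_comm] at e1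
  omega

/-- In a leaf the row sums are exact. -/
theorem leaf_row (hsum : ∑ i, r i = ∑ j, c j) (v : Node r c) (hv : v.1.1 = n) (i : Fin m) :
    ∑ j, v.1.2 j i = r i := by
  obtain ⟨h1, h2, h3, h4⟩ := mem_nodeSet.1 v.2
  have h5 : ∑ i, ∑ j, v.1.2 j i = ∑ i, r i := by
    rw [Finset.sum_comm, hsum]
    refine Finset.sum_congr rfl fun j _ => ?_
    exact h3 j (by have := j.2; omega)
  by_contra hne
  have hlt : ∑ j, v.1.2 j i < r i := lt_of_le_of_ne (h4 i) hne
  have := Finset.sum_lt_sum (fun i _ => h4 i) ⟨i, Finset.mem_univ i, hlt⟩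
  omega

/-- The leaves below a node correspond to the tables with the residual margins. -/
theorem card_leaves_trunc (hsum : ∑ i, r i = ∑ j, c j) (u : Node r c) :
    ((leafSet r c).filter fun l => trunc u.1.1 l.1.2 = u.1.2).card
      = (tabs (rres r u.1.2) (cres c u.1.1)).card := by
  obtain ⟨h1, h2, h3, h4⟩ := mem_nodeSet.1 u.2
  refine Finset.card_bij (fun l _ => fun j => if j.1 < u.1.1 then 0 else l.1.2 j) ?_ ?_ ?_
  · intro l hl
    rw [mem_filter] at hl
    obtain ⟨hl1, hl2⟩ := hl
    have hln : l.1.1 = n := (mem_filter.1 hl1).2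
    obtain ⟨l1, l2, l3, l4⟩ := mem_nodeSet.1 l.2
    rw [mem_tabs]
    have hsplit : ∀ j i, (if j.1 < u.1.1 then 0 else l.1.2 j) i + u.1.2 j i = l.1.2 j i := by
      intro j i
      have := congrFun (congrFun hl2 j) i
      simp only [trunc] at this
      by_cases hj : j.1 < u.1.1
      · rw [if_pos hj] at this ⊢
        simp [this]
      · rw [if_neg hj] at this ⊢
        rw [← this]
        simp
    constructor
    · intro j
      simp only [cres]
      by_cases hj : j.1 < u.1.1
      · simp [hj]
      · simp only [hj, if_false]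
        exact l3 j (by rw [hln]; exact j.2)
    · intro i
      simp only [rres]
      have e := leaf_row hsum l hln i
      have e2 : ∑ j, ((if j.1 < u.1.1 then 0 else l.1.2 j) i + u.1.2 j i) = r i := by
        simp_rw [hsplit]
        exact e
      rw [Finset.sum_add_distrib] at e2
      omega
  · intro l1 hl1 l2 hl2 heq
    rw [mem_filter] at hl1 hl2
    have hn1 : l1.1.1 = n := (mem_filter.1 hl1.1).2
    have hn2 : l2.1.1 = n := (mem_filter.1 hl2.1).2
    apply Subtype.ext
    apply Prod.ext
    · rw [hn1, hn2]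
    · funext j
      by_cases hj : j.1 < u.1.1
      · have e1 := congrFun hl1.2 j
        have e2 := congrFun hl2.2 j
        simp only [trunc, hj, if_true] at e1 e2
        rw [e1, e2]
      · have e := congrFun heq j
        simpa [hj] using e
  · intro T hT
    rw [mem_tabs] at hT
    obtain ⟨hT1, hT2⟩ := hT
    have hzero : ∀ j : Fin n, j.1 < u.1.1 → T j = 0 := by
      intro j hj
      have := hT1 j
      simp only [cres, hj, if_true] at this
      funext i
      have h5 := Finset.sum_eq_zero_iff.1 this i (Finset.mem_univ i)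
      simpa using h5
    have hmem : (n, fun j => u.1.2 j + T j) ∈ nodeSet r c := by
      rw [mem_nodeSet]
      refine ⟨le_rfl, fun j hj => absurd j.2 (by simp only at hj; omega), ?_, ?_⟩
      · intro j _
        simp only [Pi.add_apply]
        rw [Finset.sum_add_distrib, hT1 j]
        simp only [cres]
        by_cases hj : j.1 < u.1.1
        · simp [hj, h3 j hj]
        · simp [hj, h2 j (by omega)]
      · intro i
        simp only [Pi.add_apply]
        rw [Finset.sum_add_distrib, hT2 i]
        simp only [rres]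
        have := h4 i
        omega
    refine ⟨⟨_, hmem⟩, ?_, ?_⟩
    · rw [mem_filter]
      refine ⟨mem_filter.2 ⟨mem_univ _, rfl⟩, ?_⟩
      funext j
      simp only [trunc]
      by_cases hj : j.1 < u.1.1
      · rw [if_pos hj, hzero j hj]
        simp
      · rw [if_neg hj, h2 j (by omega)]
    · funext j
      by_cases hj : j.1 < u.1.1
      · simp only [hj, if_true]
        exact (hzero j hj).symm
      · simp only [hj, if_false]
        rw [h2 j (by omega)]
        simp

theorem nbelow_eq (hsum : ∑ i, r i = ∑ j, c j) (u : Node r c) (hu : u ≠ rootN r c) :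
    nbelow (tabTree r c) (leafSet r c) u = (tabs (rres r u.1.2) (cres c u.1.1)).card := by
  rw [← card_leaves_trunc hsum u]
  unfold nbelow
  congr 1
  refine Finset.filter_congr fun l hl => ?_
  have hln : l.1.1 = n := (mem_filter.1 hl).2
  rw [mem_anc_iff]
  have hk : u.1.1 ≠ 0 := fun h => hu (node_zero u h)
  obtain ⟨h1, _, _, _⟩ := mem_nodeSet.1 u.2
  constructor
  · exact fun h => h.2.2
  · exact fun h => ⟨by omega, by omega, h⟩

theorem card_leafSet (hsum : ∑ i, r i = ∑ j, c j) : (leafSet r c).card = (tabs r c).card := by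
  have h := card_leaves_trunc hsum (rootN r c)
  have e1 : (leafSet r c).filter (fun l => trunc (rootN r c).1.1 l.1.2 = (rootN r c).1.2)
      = leafSet r c := by
    refine Finset.filter_true_of_mem fun l _ => ?_
    funext j
    have hj : ¬ (j.1 < (rootN r c).1.1) := Nat.not_lt_zero _
    unfold trunc
    rw [if_neg hj]
    rfl
  have e2 : rres r (rootN r c).1.2 = r := by
    funext i
    simp [rres, rootN]
  have e3 : cres c (rootN r c).1.1 = c := by
    funext j
    simp [cres, rootN]
  rw [e1, e2, e3] at h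
  exact h

end Count

section Zero

theorem betaC_zero : betaC (fun _ : Fin n => 0) = 1 := by
  unfold betaC
  simp

theorem capa_zero (t : Fin n → Fin m → ℝ) : capa (fun _ : Fin m => 0) (fun _ : Fin n => 0) t = 1 := by
  unfold capa
  simp only [pow_zero, Finset.prod_const_one, div_one, ENNReal.ofReal_one]
  haveI : Nonempty {b : Fin n → ℝ // ∀ j, 0 < b j} := ⟨⟨fun _ => 1, fun _ => one_pos⟩⟩
  exact iInf_const

theorem Ihat_zero : Ihat (fun _ : Fin m => 0) (fun _ : Fin n => 0) = 1 := by
  unfold Ihat
  simp only [capa_zero, mul_one]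
  have := Vale.Agent.Lib.P328.CapS.lintegral_wmat_one (m := m) (n := n)
  unfold wmat wcol at this
  rw [this]
  simp

end Zero

section Main

variable {r : Fin m → ℕ} {c : Fin n → ℕ} {ρ : ℝ}

/-- The hypotheses of the walk, from the estimate for all margins. -/
theorem node_treeHyp (hn : 0 < n) (hsum : ∑ i, r i = ∑ j, c j) (hρ : 1 ≤ ρ)
    (hH : ∀ (r' : Fin m → ℕ) (c' : Fin n → ℕ), ∑ i, r' i = ∑ j, c' j →
      ((tabs r' c').card : ℝ) ≤ ρ * (betaC c' * (Ihat r' c').toReal))
    (hL : ∀ (r' : Fin m → ℕ) (c' : Fin n → ℕ), ∑ i, r' i = ∑ j, c' j →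
      betaC c' * (Ihat r' c').toReal ≤ ((tabs r' c').card : ℝ)) :
    TreeHyp (tabTree r c) (Aw r c) (leafSet r c) n ρ := by
  have hne : ∀ v : Node r c, (tabs (rres r v.1.2) (cres c v.1.1)).Nonempty := fun v =>
    Sparse.tabs_nonempty _ _ _ (sum_balance hsum v) rfl
  refine ⟨?_, ?_, ?_, ?_, ?_, ?_, hn, hρ⟩
  · intro v _
    have h1 := hH _ _ (sum_balance hsum v)
    have h2 : (1 : ℝ) ≤ (tabs (rres r v.1.2) (cres c v.1.1)).card := by
      exact_mod_cast (hne v).card_pos
    have h3 : 0 < ρ * Aw r c v := lt_of_lt_of_le one_pos (h2.trans h1)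
    exact (pos_iff_pos_of_mul_pos h3).1 (by linarith)
  · intro v
    exact (mem_nodeSet.1 v.2).1
  · intro v hv
    rw [nbelow_eq hsum v hv]
    exact hL _ _ (sum_balance hsum v)
  · intro v hv
    rw [nbelow_eq hsum v hv]
    exact hH _ _ (sum_balance hsum v)
  · intro l hl
    have hln : l.1.1 = n := (mem_filter.1 hl).2
    refine ⟨?_, ?_, ?_⟩
    · intro h
      rw [h] at hln
      simp only [tabTree, rootN] at hln
      omega
    · have e1 : cres c l.1.1 = fun _ => 0 := by
        funext j
        simp only [cres]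
        rw [if_pos (by rw [hln]; exact j.2)]
      have e2 : rres r l.1.2 = fun _ => 0 := by
        funext i
        simp only [rres]
        rw [leaf_row hsum l hln i]
        simp
      unfold Aw
      rw [e1, e2, betaC_zero, Ihat_zero]
      simp
    · intro u hu he
      have h1 := (tabTree r c).dep_par u hu
      rw [he] at h1
      have h2 : (tabTree r c).dep l = n := hln
      have h3 : (tabTree r c).dep u ≤ n := (mem_nodeSet.1 u.2).1
      omega
  · have : (leafSet r c).card = (tabs r c).card := card_leafSet hsum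
    rw [← Finset.card_pos, this, Finset.card_pos]
    exact Sparse.tabs_nonempty _ _ _ hsum rfl

end Main

end Vale.Agent.Lib.P328.Walk
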