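import Vale.Agent.Lib.P328.Walk.Net

/-!
# The Sinclair-Jerrum walk on a rooted tree with approximately known subtree sizes

`A v` is the weight of the edge from `v` to its parent. If `A v` approximates within a factor `ρ`
the number `N v` of marked leaves below `v`, the lazy walk has a Poincare constant `2 D ^ 2 ρ`
(`D` the depth), no matter how large the branching is; its stationary law gives the same mass to
each marked leaf, at least `1 / (2 D)` to all of them together, and at least `1 / (2 D ρ)` to the root.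
-/

namespace Vale.Agent.Lib.P328.Walk

open Finset

variable {V : Type*} [Fintype V] [DecidableEq V]

/-- A rooted tree on `V`, given by the parent map and the depth. -/
structure RTree (V : Type*) where
  /-- The root. -/
  root : V
  /-- The parent map. -/
  par : V → V
  /-- The depth. -/
  dep : V → ℕ
  dep_root : dep root = 0
  dep_par : ∀ v, v ≠ root → dep v = dep (par v) + 1

/-- The edge weights of the walk: the edge from `v` to its parent has weight `A v`. -/
def tcond (T : RTree V) (A : V → ℝ) (v w : V) : ℝ :=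
  (if v ≠ T.root ∧ T.par v = w then A v else 0) + (if w ≠ T.root ∧ T.par w = v then A w else 0)

/-- The strict ancestors together with `v` itself, without the root. -/
def anc (T : RTree V) (v : V) : Finset V := (range (T.dep v)).image fun k => T.par^[k] v

variable (T : RTree V) (A : V → ℝ)

theorem tcond_symm (v w : V) : tcond T A v w = tcond T A w v := by
  unfold tcond
  ring

variable {A} in
theorem tcond_nonneg (hA : ∀ v, v ≠ T.root → 0 ≤ A v) (v w : V) : 0 ≤ tcond T A v w := by
  unfold tcond
  refine add_nonneg ?_ ?_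
  · split_ifs with h
    · exact hA v h.1
    · exact le_rfl
  · split_ifs with h
    · exact hA w h.1
    · exact le_rfl

theorem sum_tcond_row (v : V) :
    ndeg (tcond T A) v
      = (if v ≠ T.root then A v else 0) + ∑ u, if u ≠ T.root ∧ T.par u = v then A u else 0 := by
  unfold ndeg tcond
  rw [Finset.sum_add_distrib]
  congr 1
  by_cases hv : v = T.root
  · simp [hv]
  · simp [hv]

theorem sum_tcond_mul (g : V → V → ℝ) :
    ∑ v, ∑ w, tcond T A v w * g v w
      = ∑ v, (if v ≠ T.root then A v * (g v (T.par v) + g (T.par v) v) else 0) := by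
  have e1 : ∀ v, ∑ w, (if v ≠ T.root ∧ T.par v = w then A v else 0) * g v w
      = if v ≠ T.root then A v * g v (T.par v) else 0 := by
    intro v
    by_cases hv : v = T.root
    · simp [hv]
    · have : ∀ w, (if v ≠ T.root ∧ T.par v = w then A v else 0) * g v w
          = if T.par v = w then A v * g v w else 0 := by
        intro w
        by_cases hw : T.par v = w <;> simp [hv, hw]
      simp_rw [this]
      simp [hv]
  have e2 : ∀ w, ∑ v, (if w ≠ T.root ∧ T.par w = v then A w else 0) * g v w
      = if w ≠ T.root then A w * g (T.par w) w else 0 := by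
    intro w
    by_cases hw : w = T.root
    · simp [hw]
    · have : ∀ v, (if w ≠ T.root ∧ T.par w = v then A w else 0) * g v w
          = if T.par w = v then A w * g v w else 0 := by
        intro v
        by_cases hv : T.par w = v <;> simp [hw, hv]
      simp_rw [this]
      simp [hw]
  unfold tcond
  simp_rw [add_mul, Finset.sum_add_distrib]
  simp_rw [e1]
  rw [Finset.sum_comm (f := fun v w => (if w ≠ T.root ∧ T.par w = v then A w else 0) * g v w)]
  simp_rw [e2]
  rw [← Finset.sum_add_distrib]
  refine Finset.sum_congr rfl fun v _ => ?_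
  by_cases hv : v = T.root
  · simp [hv]
  · simp [hv]
    ring

theorem anc_root : anc T T.root = ∅ := by
  unfold anc
  simp [T.dep_root]

theorem anc_par {v : V} (hv : v ≠ T.root) : anc T v = insert v (anc T (T.par v)) := by
  unfold anc
  rw [T.dep_par v hv]
  ext w
  simp only [mem_image, mem_range, mem_insert]
  constructor
  · rintro ⟨k, hk, rfl⟩
    cases k with
    | zero => exact Or.inl rfl
    | succ k => exact Or.inr ⟨k, by omega, by rw [Function.iterate_succ_apply]⟩
  · rintro (rfl | ⟨k, hk, rfl⟩)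
    · exact ⟨0, by omega, rfl⟩
    · exact ⟨k + 1, by omega, by rw [Function.iterate_succ_apply]⟩

/-- Induction along the parents. -/
theorem par_induction {P : V → Prop} (h0 : P T.root) (hs : ∀ v, v ≠ T.root → P (T.par v) → P v)
    (v : V) : P v := by
  induction hd : T.dep v generalizing v with
  | zero =>
    by_cases hv : v = T.root
    · rw [hv]; exact h0
    · have := T.dep_par v hv
      omega
  | succ d ih =>
    by_cases hv : v = T.root
    · rw [hv]; exact h0
    · refine hs v hv (ih _ ?_)
      have := T.dep_par v hv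
      omega

theorem root_notMem_anc (v : V) : T.root ∉ anc T v := by
  refine par_induction T (P := fun v => T.root ∉ anc T v) ?_ ?_ v
  · rw [anc_root]; simp
  · intro v hv ih
    rw [anc_par T hv, mem_insert]
    push Not
    exact ⟨fun e => hv e.symm, ih⟩

theorem mem_anc_ne_root {v w : V} (h : w ∈ anc T v) : w ≠ T.root :=
  fun e => root_notMem_anc T v (e ▸ h)

theorem root_notMem_anc' (w : V) : w ∉ anc T T.root := by
  rw [anc_root]; simp

theorem ne_root_of_mem_anc {v w : V} (h : w ∈ anc T v) : v ≠ T.root := by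
  rintro rfl
  rw [anc_root] at h
  simp at h

theorem self_mem_anc {v : V} (hv : v ≠ T.root) : v ∈ anc T v := by
  rw [anc_par T hv]
  exact mem_insert_self _ _

theorem anc_subset_aux (l : V) : ∀ u, u ∈ anc T l → anc T u ⊆ anc T l := by
  refine par_induction T (P := fun l => ∀ u, u ∈ anc T l → anc T u ⊆ anc T l) ?_ ?_ l
  · intro u hu
    rw [anc_root] at hu
    simp at hu
  · intro v hv ih u hu
    rw [anc_par T hv, mem_insert] at hu
    rcases hu with rfl | hu
    · exact Subset.rfl
    · rw [anc_par T hv]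
      exact (ih u hu).trans (subset_insert _ _)

theorem anc_subset {l u : V} (h : u ∈ anc T l) : anc T u ⊆ anc T l := anc_subset_aux T l u h

theorem card_anc_le (v : V) : (anc T v).card ≤ T.dep v := by
  unfold anc
  exact card_image_le.trans (by simp)

/-- The telescoping sum along the path to the root. -/
theorem sum_anc (f : V → ℝ) (v : V) : f v - f T.root = ∑ w ∈ anc T v, (f w - f (T.par w)) := by
  refine par_induction T (P := fun v => f v - f T.root = ∑ w ∈ anc T v, (f w - f (T.par w)))
    ?_ ?_ v
  · rw [anc_root]; simp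
  · intro v hv ih
    rw [anc_par T hv, sum_insert, ← ih]
    · ring
    · intro hmem
      -- `v` is not among its strict ancestors
      have h1 : ∀ w, w ∈ anc T (T.par v) → T.dep w ≤ T.dep (T.par v) := by
        refine par_induction T
          (P := fun x => ∀ w, w ∈ anc T x → T.dep w ≤ T.dep x) ?_ ?_ (T.par v)
        · intro w hw
          rw [anc_root] at hw
          simp at hw
        · intro x hx ihx w hw
          rw [anc_par T hx, mem_insert] at hw
          rcases hw with rfl | hw
          · exact le_rfl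
          · have := ihx w hw
            have := T.dep_par x hx
            omega
      have h2 := h1 v hmem
      have h3 := T.dep_par v hv
      omega

section Poincare

variable {T A}
variable {D : ℕ} {K : ℝ}

theorem nVar_le_sub [Nonempty V] (hdeg : ∀ v, 0 < ndeg (tcond T A) v) (f : V → ℝ) (a : ℝ) :
    nVar (tcond T A) f ≤ ∑ v, npi (tcond T A) v * (f v - a) ^ 2 := by
  unfold nVar
  have h1 : ∑ v, npi (tcond T A) v * (f v - a) ^ 2
      = ∑ v, npi (tcond T A) v * f v ^ 2 - 2 * a * ∑ v, npi (tcond T A) v * f v + a ^ 2 := by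
    have : ∀ v, npi (tcond T A) v * (f v - a) ^ 2
        = npi (tcond T A) v * f v ^ 2 - 2 * a * (npi (tcond T A) v * f v)
          + a ^ 2 * npi (tcond T A) v := by
      intro v; ring
    simp_rw [this]
    rw [Finset.sum_add_distrib, Finset.sum_sub_distrib, ← Finset.mul_sum, ← Finset.mul_sum,
      npi_sum hdeg, mul_one]
  rw [h1]
  nlinarith [sq_nonneg ((∑ v, npi (tcond T A) v * f v) - a)]

theorem nDir_eq [Nonempty V] (f : V → ℝ) :
    nDir (tcond T A) f
      = (∑ v, if v ≠ T.root then A v * (f v - f (T.par v)) ^ 2 else 0) / nZ (tcond T A) := by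
  unfold nDir
  rw [sum_tcond_mul T A fun v w => (f v - f w) ^ 2]
  have : ∀ v, (if v ≠ T.root then A v * ((f v - f (T.par v)) ^ 2 + (f (T.par v) - f v) ^ 2) else 0)
      = 2 * if v ≠ T.root then A v * (f v - f (T.par v)) ^ 2 else 0 := by
    intro v
    split_ifs
    · ring
    · ring
  simp_rw [this]
  rw [← Finset.mul_sum]
  rw [mul_div_mul_left _ _ (two_ne_zero)]

/-- The Poincare inequality for the walk on a tree. -/
theorem tree_poincare [Nonempty V] (hdeg : ∀ v, 0 < ndeg (tcond T A) v)
    (hA : ∀ v, v ≠ T.root → 0 ≤ A v) (hD : ∀ v, T.dep v ≤ D) (hK0 : 0 ≤ K)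
    (hload : ∀ w, w ≠ T.root → ∑ v, (if w ∈ anc T v then ndeg (tcond T A) v else 0) ≤ K * A w)
    (f : V → ℝ) : nVar (tcond T A) f ≤ (D * K) * nDir (tcond T A) f := by
  have hZ : 0 < nZ (tcond T A) := nZ_pos hdeg
  refine (nVar_le_sub hdeg f (f T.root)).trans ?_
  rw [nDir_eq]
  have h1 : ∀ v, npi (tcond T A) v * (f v - f T.root) ^ 2
      ≤ D * ∑ w, (if w ∈ anc T v then
          ndeg (tcond T A) v / nZ (tcond T A) * (f w - f (T.par w)) ^ 2 else 0) := by
    intro v
    have hpos := (npi_pos hdeg v).le
    rw [sum_anc T f v]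
    have h2 := sq_sum_le_card_mul_sum_sq (s := anc T v) (f := fun w => f w - f (T.par w)) (α := ℝ)
    have h3 : (((anc T v).card : ℕ) : ℝ) ≤ D := by
      exact_mod_cast (card_anc_le T v).trans (hD v)
    have h4 : (∑ w ∈ anc T v, (f w - f (T.par w))) ^ 2
        ≤ D * ∑ w ∈ anc T v, (f w - f (T.par w)) ^ 2 :=
      h2.trans (mul_le_mul_of_nonneg_right h3 (Finset.sum_nonneg fun _ _ => sq_nonneg _))
    have h5 : ∑ w, (if w ∈ anc T v then
          ndeg (tcond T A) v / nZ (tcond T A) * (f w - f (T.par w)) ^ 2 else 0)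
        = npi (tcond T A) v * ∑ w ∈ anc T v, (f w - f (T.par w)) ^ 2 := by
      rw [Finset.sum_ite_mem, Finset.univ_inter, Finset.mul_sum]
      rfl
    rw [h5]
    calc npi (tcond T A) v * (∑ w ∈ anc T v, (f w - f (T.par w))) ^ 2
        ≤ npi (tcond T A) v * (D * ∑ w ∈ anc T v, (f w - f (T.par w)) ^ 2) :=
          mul_le_mul_of_nonneg_left h4 hpos
      _ = D * (npi (tcond T A) v * ∑ w ∈ anc T v, (f w - f (T.par w)) ^ 2) := by ring
  calc ∑ v, npi (tcond T A) v * (f v - f T.root) ^ 2
      ≤ ∑ v, D * ∑ w, (if w ∈ anc T v then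
          ndeg (tcond T A) v / nZ (tcond T A) * (f w - f (T.par w)) ^ 2 else 0) :=
        Finset.sum_le_sum fun v _ => h1 v
    _ = D * ∑ w, ∑ v, (if w ∈ anc T v then
          ndeg (tcond T A) v / nZ (tcond T A) * (f w - f (T.par w)) ^ 2 else 0) := by
        rw [← Finset.mul_sum, Finset.sum_comm]
    _ ≤ D * ∑ w, (if w ≠ T.root then K * A w / nZ (tcond T A) * (f w - f (T.par w)) ^ 2 else 0) := by
        refine mul_le_mul_of_nonneg_left ?_ (Nat.cast_nonneg _)
        refine Finset.sum_le_sum fun w _ => ?_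
        by_cases hw : w = T.root
        · subst hw
          have : ∀ v, T.root ∉ anc T v := root_notMem_anc T
          simp [this]
        · rw [if_pos hw]
          have h6 : ∑ v, (if w ∈ anc T v then
              ndeg (tcond T A) v / nZ (tcond T A) * (f w - f (T.par w)) ^ 2 else 0)
              = (∑ v, if w ∈ anc T v then ndeg (tcond T A) v else 0) / nZ (tcond T A)
                * (f w - f (T.par w)) ^ 2 := by
            rw [Finset.sum_div, Finset.sum_mul]
            refine Finset.sum_congr rfl fun v _ => ?_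
            split_ifs <;> simp
          rw [h6]
          refine mul_le_mul_of_nonneg_right ?_ (sq_nonneg _)
          exact div_le_div_of_nonneg_right (hload w hw) hZ.le
    _ = (D * K) * ((∑ v, if v ≠ T.root then A v * (f v - f (T.par v)) ^ 2 else 0) / nZ (tcond T A)) := by
        rw [Finset.sum_div, mul_assoc]
        congr 1
        rw [Finset.mul_sum]
        refine Finset.sum_congr rfl fun v _ => ?_
        split_ifs
        · ring
        · simp

end Poincare

section Count

variable {T A}
variable {D : ℕ} {ρ : ℝ} {L : Finset V}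

/-- The number of marked leaves below `w`. -/
def nbelow (T : RTree V) (L : Finset V) (w : V) : ℕ := (L.filter fun l => w ∈ anc T l).card

/-- Double counting: the sum of `N` over the vertices below `w` is at most `D * N w`. -/
theorem sum_nbelow_le (hD : ∀ v, T.dep v ≤ D) (w : V) :
    ∑ u, (if w ∈ anc T u then (nbelow T L u : ℝ) else 0) ≤ D * nbelow T L w := by
  have h1 : ∀ u, (if w ∈ anc T u then (nbelow T L u : ℝ) else 0)
      = ∑ l ∈ L, if w ∈ anc T u ∧ u ∈ anc T l then (1 : ℝ) else 0 := by
    intro u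
    unfold nbelow
    by_cases hu : w ∈ anc T u
    · rw [if_pos hu, Finset.card_filter]
      push_cast
      refine Finset.sum_congr rfl fun l _ => ?_
      simp [hu]
    · simp [hu]
  simp_rw [h1]
  rw [Finset.sum_comm]
  have h2 : ∀ l ∈ L, ∑ u, (if w ∈ anc T u ∧ u ∈ anc T l then (1 : ℝ) else 0)
      ≤ if w ∈ anc T l then (D : ℝ) else 0 := by
    intro l _
    by_cases hl : w ∈ anc T l
    · rw [if_pos hl]
      calc ∑ u, (if w ∈ anc T u ∧ u ∈ anc T l then (1 : ℝ) else 0)
          ≤ ∑ u, (if u ∈ anc T l then (1 : ℝ) else 0) := by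
            refine Finset.sum_le_sum fun u _ => ?_
            by_cases h : u ∈ anc T l <;> simp [h]
            split_ifs <;> norm_num
        _ = ((anc T l).card : ℝ) := by
            rw [Finset.sum_ite_mem, Finset.univ_inter]
            simp
        _ ≤ D := by exact_mod_cast (card_anc_le T l).trans (hD l)
    · rw [if_neg hl]
      refine le_of_eq (Finset.sum_eq_zero fun u _ => ?_)
      rw [if_neg]
      rintro ⟨h1, h2⟩
      exact hl (anc_subset T h2 h1)
  refine (Finset.sum_le_sum h2).trans (le_of_eq ?_)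
  unfold nbelow
  rw [Finset.card_filter]
  push_cast
  rw [Finset.mul_sum]
  refine Finset.sum_congr rfl fun l _ => ?_
  split_ifs <;> simp

theorem nbelow_sum_total (hD : ∀ v, T.dep v ≤ D) :
    ∑ u, (if u ≠ T.root then (nbelow T L u : ℝ) else 0) ≤ D * L.card := by
  have h1 : ∀ u, (if u ≠ T.root then (nbelow T L u : ℝ) else 0)
      = ∑ l ∈ L, if u ∈ anc T l then (1 : ℝ) else 0 := by
    intro u
    unfold nbelow
    by_cases hu : u = T.root
    · subst hu
      simp [root_notMem_anc]
    · rw [if_pos hu, Finset.card_filter]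
      push_cast
      rfl
  simp_rw [h1]
  rw [Finset.sum_comm]
  have h2 : ∀ l ∈ L, ∑ u, (if u ∈ anc T l then (1 : ℝ) else 0) ≤ (D : ℝ) := by
    intro l _
    rw [Finset.sum_ite_mem, Finset.univ_inter]
    simp only [Finset.sum_const, nsmul_eq_mul, mul_one]
    exact_mod_cast (card_anc_le T l).trans (hD l)
  refine (Finset.sum_le_sum h2).trans (le_of_eq ?_)
  simp [mul_comm]

/-- The total weight of the network. -/
theorem nZ_eq : nZ (tcond T A) = 2 * ∑ v, if v ≠ T.root then A v else 0 := by
  unfold nZ
  simp_rw [sum_tcond_row]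
  rw [Finset.sum_add_distrib, two_mul]
  congr 1
  rw [Finset.sum_comm]
  refine Finset.sum_congr rfl fun u _ => ?_
  by_cases hu : u = T.root
  · simp [hu]
  · simp [hu]

/-- The load of an edge: the total weight of the vertices below `w`. -/
theorem load_le (hA0 : ∀ v, v ≠ T.root → 0 ≤ A v)
    (hD : ∀ v, T.dep v ≤ D) (hAN : ∀ v, v ≠ T.root → A v ≤ nbelow T L v)
    (hNA : ∀ v, v ≠ T.root → (nbelow T L v : ℝ) ≤ ρ * A v) (w : V) (hw : w ≠ T.root) :
    ∑ v, (if w ∈ anc T v then ndeg (tcond T A) v else 0) ≤ (2 * D * ρ) * A w := by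
  have h1 : ∀ v, (if w ∈ anc T v then ndeg (tcond T A) v else 0)
      = (if w ∈ anc T v then A v else 0)
        + ∑ u, if u ≠ T.root ∧ T.par u = v ∧ w ∈ anc T v then A u else 0 := by
    intro v
    by_cases hv : w ∈ anc T v
    · have hvr := ne_root_of_mem_anc T hv
      rw [if_pos hv, if_pos hv, sum_tcond_row, if_pos hvr]
      congr 1
      refine Finset.sum_congr rfl fun u _ => ?_
      simp [hv]
    · simp [hv]
  simp_rw [h1]
  rw [Finset.sum_add_distrib]
  have h2 : ∑ v, ∑ u, (if u ≠ T.root ∧ T.par u = v ∧ w ∈ anc T v then A u else 0)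
      ≤ ∑ v, (if w ∈ anc T v then A v else 0) := by
    rw [Finset.sum_comm]
    refine Finset.sum_le_sum fun u _ => ?_
    by_cases hu : u = T.root
    · subst hu
      simp only [ne_eq, not_true_eq_false, false_and, if_false, Finset.sum_const_zero]
      rw [if_neg (root_notMem_anc' T w)]
    · have h3 : ∑ v, (if u ≠ T.root ∧ T.par u = v ∧ w ∈ anc T v then A u else 0)
          = if w ∈ anc T (T.par u) then A u else 0 := by
        have : ∀ v, (if u ≠ T.root ∧ T.par u = v ∧ w ∈ anc T v then A u else 0)
            = if T.par u = v then (if w ∈ anc T v then A u else 0) else 0 := by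
          intro v
          by_cases h : T.par u = v
          · subst h
            simp [hu]
          · simp [h]
        simp_rw [this]
        simp
      rw [h3]
      by_cases hp : w ∈ anc T (T.par u)
      · rw [if_pos hp, if_pos]
        rw [anc_par T hu]
        exact mem_insert_of_mem hp
      · rw [if_neg hp]
        split_ifs
        · exact hA0 u hu
        · exact le_rfl
  have h3 : ∑ v, (if w ∈ anc T v then A v else 0) ≤ D * nbelow T L w := by
    refine le_trans ?_ (sum_nbelow_le (L := L) hD w)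
    refine Finset.sum_le_sum fun v _ => ?_
    by_cases hv : w ∈ anc T v
    · rw [if_pos hv, if_pos hv]
      exact hAN v (ne_root_of_mem_anc T hv)
    · rw [if_neg hv, if_neg hv]
  have h4 : (D : ℝ) * nbelow T L w ≤ D * (ρ * A w) :=
    mul_le_mul_of_nonneg_left (hNA w hw) (Nat.cast_nonneg _)
  nlinarith

theorem exists_top {l : V} (hl : l ≠ T.root) : ∃ u ∈ anc T l, u ≠ T.root ∧ T.par u = T.root := by
  revert hl
  refine par_induction T (P := fun l => l ≠ T.root → ∃ u ∈ anc T l, u ≠ T.root ∧ T.par u = T.root)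
    ?_ ?_ l
  · intro h
    exact absurd rfl h
  · intro v hv ih _
    by_cases hp : T.par v = T.root
    · exact ⟨v, self_mem_anc T hv, hv, hp⟩
    · obtain ⟨u, hu, h1, h2⟩ := ih hp
      refine ⟨u, ?_, h1, h2⟩
      rw [anc_par T hv]
      exact mem_insert_of_mem hu

/-- The hypotheses on the tree: the marked leaves `L` have weight one, and each `A v` estimates
the number of marked leaves below `v` within a factor `ρ`, from below. -/
structure TreeHyp (T : RTree V) (A : V → ℝ) (L : Finset V) (D : ℕ) (ρ : ℝ) : Prop where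
  A_pos : ∀ v, v ≠ T.root → 0 < A v
  dep_le : ∀ v, T.dep v ≤ D
  A_le : ∀ v, v ≠ T.root → A v ≤ nbelow T L v
  le_A : ∀ v, v ≠ T.root → (nbelow T L v : ℝ) ≤ ρ * A v
  leaf : ∀ l ∈ L, l ≠ T.root ∧ A l = 1 ∧ ∀ u, u ≠ T.root → T.par u ≠ l
  nonempty : L.Nonempty
  D_pos : 1 ≤ D
  rho_ge : 1 ≤ ρ

variable (h : TreeHyp T A L D ρ)

include h

theorem TreeHyp.card_le_deg_root : (L.card : ℝ) ≤ ρ * ndeg (tcond T A) T.root := by
  have hρ : 0 ≤ ρ := by have := h.rho_ge; linarith
  rw [sum_tcond_row, if_neg (by simp), zero_add, Finset.mul_sum]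
  have h1 : ∀ u, ∑ l ∈ L, (if u ∈ anc T l ∧ u ≠ T.root ∧ T.par u = T.root then (1 : ℝ) else 0)
      ≤ ρ * if u ≠ T.root ∧ T.par u = T.root then A u else 0 := by
    intro u
    by_cases hu : u ≠ T.root ∧ T.par u = T.root
    · rw [if_pos hu]
      refine le_trans (le_of_eq ?_) (h.le_A u hu.1)
      unfold nbelow
      rw [Finset.card_filter]
      push_cast
      refine Finset.sum_congr rfl fun l _ => ?_
      simp [hu]
    · rw [if_neg hu, mul_zero]
      refine le_of_eq (Finset.sum_eq_zero fun l _ => ?_)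
      rw [if_neg]
      exact fun h2 => hu h2.2
  refine le_trans ?_ (Finset.sum_le_sum fun u _ => h1 u)
  rw [Finset.sum_comm]
  have h2 : ∀ l ∈ L, (1 : ℝ) ≤ ∑ u, (if u ∈ anc T l ∧ u ≠ T.root ∧ T.par u = T.root then (1 : ℝ) else 0) := by
    intro l hl
    obtain ⟨u, hu, h3, h4⟩ := exists_top (T := T) (h.leaf l hl).1
    calc (1 : ℝ) = if u ∈ anc T l ∧ u ≠ T.root ∧ T.par u = T.root then (1 : ℝ) else 0 := by
          rw [if_pos ⟨hu, h3, h4⟩]
      _ ≤ _ := Finset.single_le_sum (f := fun u => if u ∈ anc T l ∧ u ≠ T.root ∧ T.par u = T.root then (1 : ℝ) else 0)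
          (fun x _ => by split_ifs <;> norm_num) (Finset.mem_univ u)
  calc (L.card : ℝ) = ∑ _l ∈ L, (1 : ℝ) := by simp
    _ ≤ _ := Finset.sum_le_sum h2

theorem TreeHyp.deg_pos (v : V) : 0 < ndeg (tcond T A) v := by
  by_cases hv : v = T.root
  · subst hv
    have h1 := h.card_le_deg_root
    have h2 : (0 : ℝ) < L.card := by exact_mod_cast h.nonempty.card_pos
    have h3 := h.rho_ge
    by_contra hneg
    push Not at hneg
    nlinarith
  · rw [sum_tcond_row, if_pos hv]
    have h1 : 0 ≤ ∑ u, if u ≠ T.root ∧ T.par u = v then A u else 0 := by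
      refine Finset.sum_nonneg fun u _ => ?_
      split_ifs with h2
      · exact (h.A_pos u h2.1).le
      · exact le_rfl
    have := h.A_pos v hv
    linarith

theorem TreeHyp.nonemptyV : Nonempty V := ⟨T.root⟩

theorem TreeHyp.Z_le : nZ (tcond T A) ≤ 2 * D * L.card := by
  rw [nZ_eq]
  have h1 := nbelow_sum_total (T := T) (L := L) h.dep_le
  have h2 : ∑ v, (if v ≠ T.root then A v else 0)
      ≤ ∑ u, (if u ≠ T.root then (nbelow T L u : ℝ) else 0) := by
    refine Finset.sum_le_sum fun v _ => ?_
    by_cases hv : v = T.root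
    · simp [hv]
    · rw [if_pos hv, if_pos hv]
      exact h.A_le v hv
  nlinarith

theorem TreeHyp.pi_root_ge : 1 / (2 * D * ρ) ≤ npi (tcond T A) T.root := by
  haveI := h.nonemptyV
  have hZ : 0 < nZ (tcond T A) := nZ_pos h.deg_pos
  have h1 := h.card_le_deg_root
  have h2 := h.Z_le
  have hρ : 0 < ρ := by have := h.rho_ge; linarith
  have hD : (0 : ℝ) < D := by exact_mod_cast h.D_pos
  have hL : (0 : ℝ) < L.card := by exact_mod_cast h.nonempty.card_pos
  unfold npi
  rw [div_le_div_iff₀ (by positivity) hZ, one_mul]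
  calc nZ (tcond T A) ≤ 2 * D * L.card := h2
    _ ≤ 2 * D * (ρ * ndeg (tcond T A) T.root) := by
        refine mul_le_mul_of_nonneg_left h1 (by positivity)
    _ = _ := by ring

theorem TreeHyp.deg_leaf {l : V} (hl : l ∈ L) : ndeg (tcond T A) l = 1 := by
  obtain ⟨h1, h2, h3⟩ := h.leaf l hl
  rw [sum_tcond_row, if_pos h1, h2]
  have : ∑ u, (if u ≠ T.root ∧ T.par u = l then A u else 0) = 0 := by
    refine Finset.sum_eq_zero fun u _ => ?_
    rw [if_neg]
    rintro ⟨h4, h5⟩
    exact h3 u h4 h5
  rw [this, add_zero]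

/-- Each marked leaf has the same stationary mass. -/
theorem TreeHyp.pi_leaf {l : V} (hl : l ∈ L) : npi (tcond T A) l = 1 / nZ (tcond T A) := by
  unfold npi
  rw [h.deg_leaf hl]

/-- The marked leaves together have stationary mass at least `1 / (2 D)`. -/
theorem TreeHyp.pi_leaves_ge : 1 / (2 * (D : ℝ)) ≤ ∑ l ∈ L, npi (tcond T A) l := by
  haveI := h.nonemptyV
  have hZ : 0 < nZ (tcond T A) := nZ_pos h.deg_pos
  have hD : (0 : ℝ) < D := by exact_mod_cast h.D_pos
  have hL : (0 : ℝ) < L.card := by exact_mod_cast h.nonempty.card_pos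
  rw [Finset.sum_congr rfl fun l hl => h.pi_leaf hl]
  simp only [Finset.sum_const, nsmul_eq_mul]
  rw [mul_one_div, div_le_div_iff₀ (by positivity) hZ, one_mul]
  have := h.Z_le
  linarith

/-- The number of marked leaves in terms of the stationary law and the weight at the root. -/
theorem TreeHyp.card_eq : (L.card : ℝ)
    = ndeg (tcond T A) T.root * (∑ l ∈ L, npi (tcond T A) l) / npi (tcond T A) T.root := by
  haveI := h.nonemptyV
  have hZ : 0 < nZ (tcond T A) := nZ_pos h.deg_pos
  have hr := h.deg_pos T.root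
  rw [Finset.sum_congr rfl fun l hl => h.pi_leaf hl]
  simp only [Finset.sum_const, nsmul_eq_mul]
  unfold npi
  field_simp

/-- The Poincare inequality on the tree, under the hypotheses. -/
theorem TreeHyp.poincare (f : V → ℝ) :
    nVar (tcond T A) f ≤ (2 * (D : ℝ) ^ 2 * ρ) * nDir (tcond T A) f := by
  haveI := h.nonemptyV
  have hρ : 0 < ρ := by have := h.rho_ge; linarith
  have := tree_poincare (K := 2 * D * ρ) (D := D) h.deg_pos (fun v hv => (h.A_pos v hv).le) h.dep_le
    (by positivity)
    (fun w hw => load_le (fun v hv => (h.A_pos v hv).le) h.dep_le h.A_le h.le_A w hw) f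
  calc nVar (tcond T A) f ≤ (D * (2 * D * ρ)) * nDir (tcond T A) f := this
    _ = _ := by ring

/-- The walk started at the root is close to stationary: no dependence on the size of the tree. -/
theorem TreeHyp.tv_root (t : ℕ) :
    (1 / 2 : ℝ) * ∑ y, |(lazyWalk (tcond T A) ^ t) T.root y - npi (tcond T A) y|
      ≤ (1 / 2 : ℝ) * Real.sqrt ((1 - 1 / (4 * (D : ℝ) ^ 2 * ρ)) ^ t * (2 * D * ρ)) := by
  haveI := h.nonemptyV
  have hρ : 1 ≤ ρ := h.rho_ge
  have hD : (1 : ℝ) ≤ D := by exact_mod_cast h.D_pos
  have hC : (1 / 2 : ℝ) ≤ 2 * (D : ℝ) ^ 2 * ρ := by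
    have : (1 : ℝ) ≤ (D : ℝ) ^ 2 := one_le_pow₀ hD
    nlinarith
  have h1 := tv_le_of_poincare (tcond_symm T A) (tcond_nonneg T fun v hv => (h.A_pos v hv).le)
    h.deg_pos hC h.poincare T.root t
  refine h1.trans (mul_le_mul_of_nonneg_left (Real.sqrt_le_sqrt ?_) (by norm_num))
  have e : 1 / (2 * (2 * (D : ℝ) ^ 2 * ρ)) = 1 / (4 * (D : ℝ) ^ 2 * ρ) := by
    congr 1; ring
  rw [e, div_eq_mul_inv]
  refine mul_le_mul_of_nonneg_left ?_ ?_
  · have h2 := h.pi_root_ge
    have h3 : (0 : ℝ) < 1 / (2 * D * ρ) := by positivity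
    have hp := npi_pos h.deg_pos (cond := tcond T A) T.root
    rw [inv_le_comm₀ hp (by positivity)]
    calc (2 * (D : ℝ) * ρ)⁻¹ = 1 / (2 * D * ρ) := by rw [one_div]
      _ ≤ _ := h2
  · have h4 : 1 / (4 * (D : ℝ) ^ 2 * ρ) ≤ 1 := by
      rw [div_le_one (by positivity)]
      have : (1 : ℝ) ≤ (D : ℝ) ^ 2 := one_le_pow₀ hD
      nlinarith
    exact pow_nonneg (by linarith) t

end Count

end Vale.Agent.Lib.P328.Walk
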